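import Mathlib

/-! The topological core: an even function on a space without odd maps to the punctured plane, which
is invariant under a unit distance relation with rich far sets, must be constant. -/

namespace Vale.Agent.Lib.P084.Dim4

open Set Filter Topology

variable {Z : Type*} [TopologicalSpace Z]

/-- Far sets for a symmetric continuous function `d` on `Z`. -/
structure FarData (ρ : Z → Z) (d : Z → Z → ℝ) (F : Z → Set Z) : Prop where
  d_cont : Continuous fun p : Z × Z => d p.1 p.2
  d_symm : ∀ s t, d s t = d t s
  d_self : ∀ s, d s s = 0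
  F_conn : ∀ s, IsPreconnected (F s)
  F_rho : ∀ s, ρ s ∈ F s
  F_far : ∀ s q, q ∈ F s → 1 ≤ d s q
  F_int : ∀ s s', (F s ∩ F s').Nonempty

/-- A component of a strict sublevel set contains no pair `y, ρ y`. -/
lemma free_comp [LocallyConnectedSpace Z] [ConnectedSpace Z] {ρ : Z → Z} {d : Z → Z → ℝ}
    {F : Z → Set Z} (hD : FarData ρ d F) {h : Z → ℝ} (hc : Continuous h)
    (hrel : ∀ s t, d s t = 1 → h s = h t) {c : ℝ} {t₀ : Z} (ht₀ : c ≤ h t₀) {y : Z} (hy : h y < c) :
    ρ y ∉ connectedComponentIn {t | h t < c} y := by
  intro hmem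
  set A : Set Z := {t | h t < c} with hA
  have hAopen : IsOpen A := isOpen_lt hc continuous_const
  set W := connectedComponentIn A y with hW
  have hWopen : IsOpen W := hAopen.connectedComponentIn
  have hWconn : IsPreconnected W := isPreconnected_connectedComponentIn
  have hWsub : W ⊆ A := connectedComponentIn_subset A y
  have hyW : y ∈ W := mem_connectedComponentIn hy
  have hne : W ≠ univ := by
    intro h1
    have : t₀ ∈ A := hWsub (by rw [h1]; trivial)
    exact absurd (show h t₀ < c from this) (not_lt.2 ht₀)
  -- boundary values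
  have hbd : ∀ z ∈ frontier W, h z = c := by
    intro z hz
    have hzcl : z ∈ closure W := frontier_subset_closure hz
    have hznot : z ∉ W := by
      rw [hWopen.frontier_eq] at hz
      exact hz.2
    have hle : h z ≤ c := by
      have hsub : W ⊆ {t | h t ≤ c} := fun t ht => le_of_lt (show h t < c from hWsub ht)
      exact closure_minimal hsub (isClosed_le hc continuous_const) hzcl
    by_contra hnec
    have hzA : z ∈ A := lt_of_le_of_ne hle hnec
    have hOpen : IsOpen (connectedComponentIn A z) := hAopen.connectedComponentIn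
    obtain ⟨p, hp1, hp2⟩ := mem_closure_iff.1 hzcl _ hOpen (mem_connectedComponentIn hzA)
    have e1 : connectedComponentIn A z = connectedComponentIn A p := connectedComponentIn_eq hp1
    have e2 : W = connectedComponentIn A p := connectedComponentIn_eq hp2
    apply hznot
    rw [e2, ← e1]
    exact mem_connectedComponentIn hzA
  -- close to boundary points
  have hclaim : ∀ z ∈ frontier W, ∀ y' ∈ W, d z y' < 1 := by
    intro z hz y' hy'
    have hzcl : z ∈ closure W := frontier_subset_closure hz
    have hdc : Continuous fun t => d z t := hD.d_cont.comp (Continuous.prodMk_right z)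
    have hnear : IsOpen {t | d z t < 1} := isOpen_lt hdc continuous_const
    obtain ⟨y'', hy''1, hy''2⟩ := mem_closure_iff.1 hzcl _ hnear
      (by show d z z < 1; rw [hD.d_self]; exact zero_lt_one)
    by_contra hge
    have hge' : 1 ≤ d z y' := not_lt.1 hge
    obtain ⟨t, ht, ht1⟩ := hWconn.intermediate_value hy''2 hy' hdc.continuousOn
      ⟨le_of_lt hy''1, hge'⟩
    have := hrel z t ht1
    rw [hbd z hz] at this
    exact absurd (hWsub ht) (by simp [hA, ← this])
  -- the far set of `y` stays inside `W`
  have hmiss : ∀ q ∈ F y, q ∉ frontier W := by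
    intro q hq hqf
    have h1 := hclaim q hqf y hyW
    have h2 := hD.F_far y q hq
    rw [hD.d_symm] at h2
    linarith
  have hsubset : F y ⊆ W := by
    have hcov : F y ⊆ W ∪ (closure W)ᶜ := by
      intro q hq
      by_cases hqW : q ∈ W
      · exact Or.inl hqW
      · right
        intro hcl
        apply hmiss q hq
        rw [hWopen.frontier_eq]
        exact ⟨hcl, hqW⟩
    have hdisj : Disjoint W (closure W)ᶜ :=
      Set.disjoint_left.2 fun a ha hb => hb (subset_closure ha)
    exact (hD.F_conn y).subset_left_of_subset_union hWopen isClosed_closure.isOpen_compl hdisj hcov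
      ⟨ρ y, hD.F_rho y, hmem⟩
  have hfront : (frontier W).Nonempty := nonempty_frontier_iff.2 ⟨⟨y, hyW⟩, hne⟩
  obtain ⟨z, hz⟩ := hfront
  obtain ⟨q, hq1, hq2⟩ := hD.F_int y z
  have h1 := hclaim z hz q (hsubset hq1)
  have h2 := hD.F_far z q hq2
  linarith

/-- Odd locally constant sign on a set whose components are freely permuted. -/
lemma exists_sign [LocallyConnectedSpace Z] {ρ : Z → Z} (hρ : Continuous ρ)
    (hρρ : ∀ z, ρ (ρ z) = z) {A : Set Z} (hA : IsOpen A) (hρA : ∀ y ∈ A, ρ y ∈ A)
    (hfree : ∀ y ∈ A, ρ y ∉ connectedComponentIn A y) :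
    ∃ σ : Z → ℝ, (∀ y ∈ A, |σ y| = 1) ∧ (∀ y ∈ A, σ (ρ y) = -σ y) ∧
      (∀ y ∈ A, ∀ᶠ t in 𝓝 y, σ t = σ y) := by
  classical
  set C : Z → Set Z := fun y => connectedComponentIn A y with hC
  have hCne : ∀ y ∈ A, C y ≠ C (ρ y) := by
    intro y hy heq
    apply hfree y hy
    have : ρ y ∈ C (ρ y) := mem_connectedComponentIn (hρA y hy)
    rw [← heq] at this
    exact this
  have hCρ : ∀ y ∈ A, ∀ y' ∈ C y, C y' = C y ∧ C (ρ y') = C (ρ y) := by
    intro y hy y' hy'
    refine ⟨(connectedComponentIn_eq hy').symm, ?_⟩
    have hconn : IsPreconnected (ρ '' C y) :=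
      isPreconnected_connectedComponentIn.image _ hρ.continuousOn
    have hsub : ρ '' C y ⊆ A := by
      rintro _ ⟨a, ha, rfl⟩
      exact hρA a (connectedComponentIn_subset A y ha)
    have hsub2 : ρ '' C y ⊆ C (ρ y) :=
      hconn.subset_connectedComponentIn (mem_image_of_mem _ (mem_connectedComponentIn hy)) hsub
    exact (connectedComponentIn_eq (hsub2 (mem_image_of_mem _ hy'))).symm
  let r : Set Z → Set Z → Prop := WellOrderingRel
  refine ⟨fun y => if r (C y) (C (ρ y)) then 1 else -1, ?_, ?_, ?_⟩
  · intro y _
    by_cases hr : r (C y) (C (ρ y)) <;> simp [hr]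
  · intro y hy
    have hne := hCne y hy
    have htri := trichotomous_of r (C y) (C (ρ y))
    simp only [hρρ]
    by_cases hr : r (C y) (C (ρ y))
    · have hr' : ¬ r (C (ρ y)) (C y) := fun h2 => asymm_of r hr h2
      simp [hr, hr']
    · have hr' : r (C (ρ y)) (C y) := by
        rcases htri with h1 | h1 | h1
        · exact absurd h1 hr
        · exact absurd h1 hne
        · exact h1
      simp [hr, hr']
  · intro y hy
    have hopen : IsOpen (C y) := hA.connectedComponentIn
    filter_upwards [hopen.mem_nhds (mem_connectedComponentIn hy)] with t ht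
    obtain ⟨h1, h2⟩ := hCρ y hy t ht
    simp only [h1, h2]

/-- Continuity of a nonnegative function times a sign. -/
lemma continuous_mul_sign {A : Set Z} {a σ : Z → ℝ} (ha : Continuous a)
    (h0 : ∀ t, t ∉ A → a t = 0) (hσ : ∀ y ∈ A, |σ y| = 1)
    (hloc : ∀ y ∈ A, ∀ᶠ t in 𝓝 y, σ t = σ y) : Continuous fun t => a t * σ t := by
  rw [continuous_iff_continuousAt]
  intro y
  by_cases hy : y ∈ A
  · have h1 : ContinuousAt (fun t => a t * σ y) y := (ha.mul continuous_const).continuousAt
    refine h1.congr ?_
    filter_upwards [hloc y hy] with t ht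
    rw [ht]
  · have hay := h0 y hy
    have hbound : ∀ t, |a t * σ t| ≤ |a t| := by
      intro t
      by_cases ht : t ∈ A
      · rw [abs_mul, hσ t ht, mul_one]
      · rw [h0 t ht]; simp
    have hlim : Tendsto (fun t => |a t|) (𝓝 y) (𝓝 0) := by
      have := (ha.abs.tendsto y)
      simpa [hay] using this
    have h2 : Tendsto (fun t => a t * σ t) (𝓝 y) (𝓝 0) :=
      squeeze_zero_norm (fun t => by simpa using hbound t) hlim
    simp only [ContinuousAt, hay, zero_mul]
    exact h2

/-- The topological core. -/
theorem even_const [LocallyConnectedSpace Z] [ConnectedSpace Z] {ρ : Z → Z} (hρ : Continuous ρ)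
    (hρρ : ∀ z, ρ (ρ z) = z)
    (hBU : ∀ Ξ : Z → ℂ, Continuous Ξ → (∀ t, Ξ t ≠ 0) → (∀ t, Ξ (ρ t) = -Ξ t) → False)
    {d : Z → Z → ℝ} {F : Z → Set Z} (hD : FarData ρ d F) {h : Z → ℝ} (hc : Continuous h)
    (heven : ∀ t, h (ρ t) = h t) (hrel : ∀ s t, d s t = 1 → h s = h t) (s t : Z) : h s = h t := by
  by_contra hne
  wlog hlt : h s < h t generalizing s t
  · exact this t s (Ne.symm hne) (lt_of_le_of_ne (not_lt.1 hlt) (Ne.symm hne))
  obtain ⟨c1, hc1, hc12⟩ := exists_between hlt
  obtain ⟨c2, hc2, hc23⟩ := exists_between hc12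
  -- the two open sets
  set A : Set Z := {x | h x < c2} with hA
  set B : Set Z := {x | -h x < -c1} with hB
  have hAo : IsOpen A := isOpen_lt hc continuous_const
  have hBo : IsOpen B := isOpen_lt hc.neg continuous_const
  have hfreeA : ∀ y ∈ A, ρ y ∉ connectedComponentIn A y := fun y hy =>
    free_comp hD hc hrel (t₀ := t) hc23.le hy
  have hfreeB : ∀ y ∈ B, ρ y ∉ connectedComponentIn B y := fun y hy =>
    free_comp hD (h := fun x => -h x) hc.neg (fun a b hab => by simp only [hrel a b hab]) (t₀ := s)
      (neg_le_neg hc1.le) hy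
  obtain ⟨σA, hA1, hA2, hA3⟩ := exists_sign hρ hρρ hAo
    (fun y hy => by simpa [hA, heven] using hy) hfreeA
  obtain ⟨σB, hB1, hB2, hB3⟩ := exists_sign hρ hρρ hBo
    (fun y hy => by simpa [hB, heven] using hy) hfreeB
  set a : Z → ℝ := fun x => max 0 (c2 - h x) with ha
  set b : Z → ℝ := fun x => max 0 (h x - c1) with hb
  have hac : Continuous a := continuous_const.max (continuous_const.sub hc)
  have hbc : Continuous b := continuous_const.max (hc.sub continuous_const)
  have ha0 : ∀ x, x ∉ A → a x = 0 := by
    intro x hx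
    have : c2 ≤ h x := not_lt.1 hx
    simp only [ha]
    exact max_eq_left (by linarith)
  have hb0 : ∀ x, x ∉ B → b x = 0 := by
    intro x hx
    have : -c1 ≤ -h x := not_lt.1 hx
    simp only [hb]
    exact max_eq_left (by linarith)
  have hp := continuous_mul_sign hac ha0 hA1 hA3
  have hq := continuous_mul_sign hbc hb0 hB1 hB3
  apply hBU (fun x => ((a x * σA x : ℝ) : ℂ) + ((b x * σB x : ℝ) : ℂ) * Complex.I)
  · exact (Complex.continuous_ofReal.comp hp).add
      ((Complex.continuous_ofReal.comp hq).mul continuous_const)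
  · intro x h0
    have hre : a x * σA x = 0 := by
      have := congrArg Complex.re h0
      simpa using this
    have him : b x * σB x = 0 := by
      have := congrArg Complex.im h0
      simpa using this
    by_cases hx : x ∈ A
    · have h1 : 0 < a x := lt_max_of_lt_right (by
        have : h x < c2 := hx
        linarith)
      have h2 : σA x ≠ 0 := by
        intro h3
        have := hA1 x hx
        rw [h3] at this
        simp at this
      exact mul_ne_zero h1.ne' h2 hre
    · have hx' : c2 ≤ h x := not_lt.1 hx
      have hxB : x ∈ B := by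
        have : -h x < -c1 := by linarith
        exact this
      have h1 : 0 < b x := lt_max_of_lt_right (by linarith)
      have h2 : σB x ≠ 0 := by
        intro h3
        have := hB1 x hxB
        rw [h3] at this
        simp at this
      exact mul_ne_zero h1.ne' h2 him
  · intro x
    have h1 : a (ρ x) * σA (ρ x) = -(a x * σA x) := by
      have e : a (ρ x) = a x := by simp only [ha, heven]
      rw [e]
      by_cases hx : x ∈ A
      · rw [hA2 x hx]; ring
      · rw [ha0 x hx]; ring
    have h2 : b (ρ x) * σB (ρ x) = -(b x * σB x) := by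
      have e : b (ρ x) = b x := by simp only [hb, heven]
      rw [e]
      by_cases hx : x ∈ B
      · rw [hB2 x hx]; ring
      · rw [hb0 x hx]; ring
    simp only [h1, h2]
    push_cast
    ring

end Vale.Agent.Lib.P084.Dim4
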