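import Vale.Agent.Lib.P084.Dim4.BU
import Vale.Agent.Lib.P084.Dim4.Comps

/-! Geometry of the intersection of the unit sphere with a translate, in a strictly convex space. -/

set_option linter.unusedSectionVars false

namespace Vale.Agent.Lib.P084.Dim4

open Metric Set Filter Topology

variable {X : Type*} [NormedAddCommGroup X] [NormedSpace ℝ X]

/-- Unit vectors at unit distance from `w`. -/
def Ew (w : X) : Set X := {x | ‖x‖ = 1 ∧ ‖x - w‖ = 1}

/-- The lens. -/
def Lens (w : X) : Set X := {x | ‖x‖ ≤ 1 ∧ ‖x - w‖ ≤ 1}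

lemma Ew_subset_Lens (w : X) : Ew w ⊆ Lens w := fun _ hx => ⟨hx.1.le, hx.2.le⟩

lemma Ew_rho {w x : X} (hx : x ∈ Ew w) : w - x ∈ Ew w := by
  constructor
  · rw [norm_sub_rev]; exact hx.2
  · have : w - x - w = -x := by abel
    rw [this, norm_neg]; exact hx.1

lemma isClosed_Ew (w : X) : IsClosed (Ew w) :=
  (isClosed_eq continuous_norm continuous_const).inter
    (isClosed_eq (continuous_norm.comp (continuous_id.sub continuous_const)) continuous_const)

lemma isClosed_Lens (w : X) : IsClosed (Lens w) :=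
  (isClosed_le continuous_norm continuous_const).inter
    (isClosed_le (continuous_norm.comp (continuous_id.sub continuous_const)) continuous_const)

lemma isCompact_Ew [FiniteDimensional ℝ X] (w : X) : IsCompact (Ew w) := by
  have : ProperSpace X := FiniteDimensional.proper_real X
  apply (isCompact_closedBall (0 : X) 1).of_isClosed_subset (isClosed_Ew w)
  intro x hx
  simp [hx.1]

lemma isCompact_Lens [FiniteDimensional ℝ X] (w : X) : IsCompact (Lens w) := by
  have : ProperSpace X := FiniteDimensional.proper_real X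
  apply (isCompact_closedBall (0 : X) 1).of_isClosed_subset (isClosed_Lens w)
  intro x hx
  simpa using hx.1

section Strict

variable [StrictConvexSpace ℝ X]

/-- Along a line in direction `w`, the unit ball lies between the two points of a chord `x - w, x`. -/
lemma line_le {w x : X} (hw : w ≠ 0) (hx : x ∈ Ew w) {α : ℝ} (hα : ‖x + α • w‖ ≤ 1) :
    α ≤ 0 ∧ -1 ≤ α := by
  constructor
  · by_contra hpos
    have hα0 : 0 < α := not_le.1 hpos
    have hne : x - w ≠ x + α • w := by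
      intro h
      have h1 : (1 + α) • w = 0 := by
        have : (1 + α) • w = (x + α • w) - (x - w) := by
          rw [add_smul, one_smul]; abel
        rw [this, ← h, sub_self]
      rcases smul_eq_zero.1 h1 with h2 | h2
      · linarith
      · exact hw h2
    have hlt := norm_combo_lt_of_ne (a := α / (1 + α)) (b := 1 / (1 + α)) hx.2.le hα hne
      (by positivity) (by positivity) (by field_simp; ring)
    have heq : (α / (1 + α)) • (x - w) + (1 / (1 + α)) • (x + α • w) = x := by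
      have h1 : (1 + α) ≠ 0 := by positivity
      rw [smul_sub, smul_add, smul_smul]
      have h2 : (1 / (1 + α) * α) = α / (1 + α) := by ring
      rw [h2]
      have h3 : (α / (1 + α)) • x + (1 / (1 + α)) • x = x := by
        rw [← add_smul]
        have : α / (1 + α) + 1 / (1 + α) = 1 := by field_simp; ring
        rw [this, one_smul]
      calc _ = (α / (1 + α)) • x + (1 / (1 + α)) • x := by abel
        _ = x := h3
    rw [heq, hx.1] at hlt
    exact lt_irrefl _ hlt
  · by_contra hneg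
    have hα0 : α < -1 := not_le.1 hneg
    set β : ℝ := -1 - α with hβ
    have hβ0 : 0 < β := by rw [hβ]; linarith
    have hne : x ≠ x + α • w := by
      intro h
      have h1 : α • w = 0 := by
        have := sub_eq_zero.2 h
        simpa using this
      rcases smul_eq_zero.1 h1 with h2 | h2
      · linarith
      · exact hw h2
    have hlt := norm_combo_lt_of_ne (a := β / (1 + β)) (b := 1 / (1 + β)) hx.1.le hα hne
      (by positivity) (by positivity) (by field_simp; ring)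
    have heq : (β / (1 + β)) • x + (1 / (1 + β)) • (x + α • w) = x - w := by
      have h1 : (1 + β) ≠ 0 := by positivity
      rw [smul_add, smul_smul]
      have h3 : (β / (1 + β)) • x + (1 / (1 + β)) • x = x := by
        rw [← add_smul]
        have : β / (1 + β) + 1 / (1 + β) = 1 := by field_simp; ring
        rw [this, one_smul]
      have h4 : (1 / (1 + β) * α) = -1 := by
        rw [hβ]
        have : 1 + (-1 - α) ≠ 0 := by
          intro h5
          rw [hβ] at h1
          exact h1 h5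
        field_simp
        ring
      rw [h4, neg_one_smul, ← add_assoc, h3, sub_eq_add_neg]
    rw [heq, hx.2] at hlt
    exact lt_irrefl _ hlt

/-- Chords in direction `w` have length at most `‖w‖` once they lie beyond a chord of length `‖w‖`:
the trapezoid argument. -/
lemma trapezoid {w x x' : X} (hw : w ≠ 0) (hw2 : ‖w‖ < 2) (hx : x ∈ Ew w) (hx' : x' ∈ Lens w)
    {κ β : ℝ} (hκ : 1 < κ) (hrep : x' = κ • x + β • w) : False := by
  have hκ0 : 0 < κ := by linarith
  set l : ℝ := κ⁻¹ with hl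
  have hl0 : 0 < l := inv_pos.2 hκ0
  have hl1 : l < 1 := inv_lt_one_of_one_lt₀ hκ
  have hlκ : l * κ = 1 := inv_mul_cancel₀ hκ0.ne'
  set n : ℝ := ‖w‖ with hn
  have hn0 : 0 < n := norm_pos_iff.2 hw
  set u : X := n⁻¹ • w with hu
  have hu1 : ‖u‖ = 1 := by
    rw [hu, norm_smul, norm_inv, norm_norm]
    exact inv_mul_cancel₀ hn0.ne'
  -- first point
  set α1 : ℝ := l * β + (1 - l) * n⁻¹ with hα1
  have hP1 : l • x' + (1 - l) • u = x + α1 • w := by
    rw [hrep, hu, smul_add, smul_smul, hlκ, one_smul, smul_smul, smul_smul, add_assoc, ← add_smul]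
  have hn1 : ‖x + α1 • w‖ ≤ 1 := by
    rw [← hP1]
    calc ‖l • x' + (1 - l) • u‖ ≤ ‖l • x'‖ + ‖(1 - l) • u‖ := norm_add_le _ _
      _ = l * ‖x'‖ + (1 - l) * ‖u‖ := by
          rw [norm_smul, norm_smul, Real.norm_of_nonneg hl0.le,
            Real.norm_of_nonneg (by linarith)]
      _ ≤ l * 1 + (1 - l) * 1 := by
          rw [hu1]
          have := hx'.1
          gcongr
      _ = 1 := by ring
  -- second point
  set α2 : ℝ := l * (β - 1) - (1 - l) * n⁻¹ with hα2
  have hP2 : l • (x' - w) + (1 - l) • (-u) = x + α2 • w := by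
    rw [hrep, hu, smul_sub, smul_add, smul_smul, hlκ, one_smul, smul_smul, smul_neg, smul_smul]
    rw [hα2, sub_smul, mul_sub, mul_one, sub_smul]
    abel
  have hn2 : ‖x + α2 • w‖ ≤ 1 := by
    rw [← hP2]
    calc ‖l • (x' - w) + (1 - l) • (-u)‖ ≤ ‖l • (x' - w)‖ + ‖(1 - l) • (-u)‖ := norm_add_le _ _
      _ = l * ‖x' - w‖ + (1 - l) * ‖u‖ := by
          rw [norm_smul, norm_smul, Real.norm_of_nonneg hl0.le,
            Real.norm_of_nonneg (by linarith), norm_neg]
      _ ≤ l * 1 + (1 - l) * 1 := by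
          rw [hu1]
          have := hx'.2
          gcongr
      _ = 1 := by ring
  have h1 := (line_le hw hx hn1).1
  have h2 := (line_le hw hx hn2).2
  have hdiff : α1 - α2 = l + (1 - l) * (2 * n⁻¹) := by
    rw [hα1, hα2]
    ring
  have hninv : 1 < 2 * n⁻¹ := by
    rw [← div_eq_mul_inv, one_lt_div hn0]
    exact hw2
  have : 1 < α1 - α2 := by
    rw [hdiff]
    nlinarith
  linarith

section Param

variable {E' : Type*} [NormedAddCommGroup E'] [NormedSpace ℝ E']

lemma pi_ne_zero {w x : X} (hw2 : ‖w‖ < 2) (π : X →L[ℝ] E')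
    (hker : ∀ x, π x = 0 ↔ ∃ a : ℝ, x = a • w) (hx : x ∈ Ew w) : π x ≠ 0 := by
  intro h0
  obtain ⟨a, rfl⟩ := (hker _).1 h0
  have h1 := hx.1
  have h2 := hx.2
  have h3 : a • w - w = (a - 1) • w := by rw [sub_smul, one_smul]
  rw [h3, norm_smul] at h2
  rw [norm_smul] at h1
  have hn0 : 0 < ‖w‖ := by
    by_contra hn
    have : ‖w‖ = 0 := le_antisymm (not_lt.1 hn) (norm_nonneg _)
    rw [this] at h1
    simp at h1
  have h4 : ‖a‖ = ‖a - 1‖ := by
    have : ‖a‖ * ‖w‖ = ‖a - 1‖ * ‖w‖ := by rw [h1, h2]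
    exact mul_right_cancel₀ hn0.ne' this
  have h5 : a = 1 / 2 := by
    rw [Real.norm_eq_abs, Real.norm_eq_abs] at h4
    rcases abs_eq_abs.1 h4 with h6 | h6 <;> linarith
  rw [h5] at h1
  have h6 : ‖(1 / 2 : ℝ)‖ = 1 / 2 := by norm_num
  rw [h6] at h1
  linarith

/-- Injectivity of the radial parametrisation. -/
lemma Ew_inj {w x x' : X} (hw : w ≠ 0) (hw2 : ‖w‖ < 2) (π : X →L[ℝ] E')
    (hker : ∀ x, π x = 0 ↔ ∃ a : ℝ, x = a • w) (hx : x ∈ Ew w) (hx' : x' ∈ Ew w) {κ : ℝ}
    (hκ : 0 < κ) (hπ : π x' = κ • π x) : x' = x := by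
  have h0 : π (x' - κ • x) = 0 := by
    rw [map_sub, map_smul, hπ, sub_self]
  obtain ⟨β, hβ⟩ := (hker _).1 h0
  have hrep : x' = κ • x + β • w := by
    rw [← hβ]; abel
  rcases lt_trichotomy κ 1 with h1 | h1 | h1
  · exfalso
    have hrep' : x = κ⁻¹ • x' + (-(κ⁻¹ * β)) • w := by
      rw [hrep, smul_add, smul_smul, inv_mul_cancel₀ hκ.ne', one_smul, smul_smul, neg_smul]
      abel
    exact trapezoid hw hw2 hx' (Ew_subset_Lens w hx) ((one_lt_inv₀ hκ).2 h1) hrep'
  · have hrep2 : x' = x + β • w := by rw [hrep, h1, one_smul]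
    have hl1 : ‖x + β • w‖ ≤ 1 := by rw [← hrep2]; exact hx'.1.le
    have hl2 : ‖x + (β - 1) • w‖ ≤ 1 := by
      have : x + (β - 1) • w = x' - w := by
        rw [hrep2, sub_smul, one_smul]; abel
      rw [this]; exact hx'.2.le
    have h3 := (line_le hw hx hl1).1
    have h4 := (line_le hw hx hl2).2
    have : β = 0 := by linarith
    rw [hrep2, this, zero_smul, add_zero]
  · exact (trapezoid hw hw2 hx (Ew_subset_Lens w hx') h1 hrep).elim

/-- Existence of a point of `Ew w` over each ray. -/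
lemma Ew_exists [FiniteDimensional ℝ X] {w : X} (hw : w ≠ 0) (hw2 : ‖w‖ < 2) (π : X →L[ℝ] E')
    (hw0 : π w = 0) (hs : Function.Surjective π) {t : E'} (ht : t ≠ 0) :
    ∃ x ∈ Ew w, ∃ κ : ℝ, 0 < κ ∧ π x = κ • t := by
  obtain ⟨e, he⟩ := hs t
  set n : ℝ := ‖w‖ with hn
  have hn0 : 0 < n := norm_pos_iff.2 hw
  set u : X := n⁻¹ • w with hu
  have hu1 : ‖u‖ = 1 := by
    rw [hu, norm_smul, norm_inv, norm_norm]
    exact inv_mul_cancel₀ hn0.ne'
  have hπu : π u = 0 := by rw [hu, map_smul, hw0, smul_zero]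
  set v : ℝ → X := fun θ => Real.cos θ • u + Real.sin θ • e with hv
  have hπv : ∀ θ, π (v θ) = Real.sin θ • t := by
    intro θ
    simp only [hv, map_add, map_smul, hπu, smul_zero, zero_add, he]
  have hv0 : ∀ θ, v θ ≠ 0 := by
    intro θ h0
    have h1 := hπv θ
    rw [h0, map_zero] at h1
    have hsin : Real.sin θ = 0 := by
      rcases smul_eq_zero.1 h1.symm with h2 | h2
      · exact h2
      · exact absurd h2 ht
    have hcos : Real.cos θ ≠ 0 := by
      intro h2
      have := Real.sin_sq_add_cos_sq θ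
      rw [hsin, h2] at this
      norm_num at this
    have h3 : Real.cos θ • u = 0 := by
      have := h0
      simp only [hv, hsin, zero_smul, add_zero] at this
      exact this
    rcases smul_eq_zero.1 h3 with h4 | h4
    · exact hcos h4
    · rw [h4, norm_zero] at hu1
      norm_num at hu1
  have hvc : Continuous v := by
    simp only [hv]
    fun_prop
  have hnv : ∀ θ, ‖v θ‖ ≠ 0 := fun θ => norm_ne_zero_iff.2 (hv0 θ)
  set y : ℝ → X := fun θ => ‖v θ‖⁻¹ • v θ with hy
  have hyc : Continuous y := by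
    simp only [hy]
    exact (hvc.norm.inv₀ hnv).smul hvc
  have hy1 : ∀ θ, ‖y θ‖ = 1 := by
    intro θ
    simp only [hy]
    rw [norm_smul, norm_inv, norm_norm, inv_mul_cancel₀ (hnv θ)]
  have hy0 : y 0 = u := by
    simp only [hy, hv, Real.cos_zero, Real.sin_zero, one_smul, zero_smul, add_zero, hu1, inv_one]
  have hyπ : y Real.pi = -u := by
    simp only [hy, hv, Real.cos_pi, Real.sin_pi, zero_smul, add_zero, neg_one_smul, norm_neg, hu1,
      inv_one, one_smul]
  have hψ0 : ‖y 0 - w‖ < 1 := by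
    rw [hy0]
    have : u - w = (n⁻¹ - 1) • w := by rw [hu, sub_smul, one_smul]
    rw [this, norm_smul, Real.norm_eq_abs]
    have h1 : |n⁻¹ - 1| * ‖w‖ = |1 - n| := by
      rw [← hn]
      have : |n⁻¹ - 1| * n = |n⁻¹ - 1| * |n| := by rw [abs_of_pos hn0]
      rw [this, ← abs_mul, sub_mul, inv_mul_cancel₀ hn0.ne', one_mul]
    rw [h1, abs_lt]
    constructor <;> linarith
  have hψπ : 1 < ‖y Real.pi - w‖ := by
    rw [hyπ]
    have : -u - w = -((n⁻¹ + 1) • w) := by rw [hu, add_smul, one_smul]; abel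
    rw [this, norm_neg, norm_smul, Real.norm_of_nonneg (by positivity), add_mul,
      inv_mul_cancel₀ hn0.ne']
    linarith
  have hψc : Continuous fun θ => ‖y θ - w‖ := (hyc.sub continuous_const).norm
  obtain ⟨θ, hθ, hθ1⟩ := intermediate_value_Icc Real.pi_pos.le hψc.continuousOn
    (show (1 : ℝ) ∈ Icc _ _ from ⟨hψ0.le, hψπ.le⟩)
  have hθ0 : θ ≠ 0 := by
    rintro rfl
    simp only at hθ1
    linarith
  have hθπ : θ ≠ Real.pi := by
    rintro rfl
    simp only at hθ1
    linarith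
  have hsin : 0 < Real.sin θ :=
    Real.sin_pos_of_pos_of_lt_pi (lt_of_le_of_ne hθ.1 hθ0.symm) (lt_of_le_of_ne hθ.2 hθπ)
  refine ⟨y θ, ⟨hy1 θ, hθ1⟩, ‖v θ‖⁻¹ * Real.sin θ, ?_, ?_⟩
  · have : 0 < ‖v θ‖ := norm_pos_iff.2 (hv0 θ)
    positivity
  · simp only [hy]
    rw [map_smul, hπv, smul_smul]

end Param

section Max

variable {w : X}

lemma not_max_of_interior {φ : X →L[ℝ] ℝ} (hφ : φ ≠ 0) {x : X} (h1 : ‖x‖ < 1) (h2 : ‖x - w‖ < 1) :
    ∃ z ∈ Lens w, φ x < φ z := by
  obtain ⟨v, hv⟩ : ∃ v, φ v ≠ 0 := by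
    by_contra hcon
    push Not at hcon
    exact hφ (ContinuousLinearMap.ext hcon)
  obtain ⟨v', hv'⟩ : ∃ v', 0 < φ v' := by
    rcases lt_or_gt_of_ne hv with h | h
    · exact ⟨-v, by simpa using h⟩
    · exact ⟨v, h⟩
  set ε : ℝ := min (1 - ‖x‖) (1 - ‖x - w‖) / (‖v'‖ + 1) with hε
  have hm : 0 < min (1 - ‖x‖) (1 - ‖x - w‖) := lt_min (by linarith) (by linarith)
  have hd : 0 < ‖v'‖ + 1 := by positivity
  have hε0 : 0 < ε := div_pos hm hd
  have hε1 : ε * ‖v'‖ ≤ min (1 - ‖x‖) (1 - ‖x - w‖) := by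
    rw [hε, div_mul_eq_mul_div, div_le_iff₀ hd]
    nlinarith [norm_nonneg v']
  have hε2 := le_trans hε1 (min_le_left _ _)
  have hε3 := le_trans hε1 (min_le_right _ _)
  refine ⟨x + ε • v', ⟨?_, ?_⟩, ?_⟩
  · calc ‖x + ε • v'‖ ≤ ‖x‖ + ‖ε • v'‖ := norm_add_le _ _
      _ = ‖x‖ + ε * ‖v'‖ := by rw [norm_smul, Real.norm_of_nonneg hε0.le]
      _ ≤ 1 := by linarith
  · have : x + ε • v' - w = (x - w) + ε • v' := by abel
    rw [this]
    calc ‖(x - w) + ε • v'‖ ≤ ‖x - w‖ + ‖ε • v'‖ := norm_add_le _ _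
      _ = ‖x - w‖ + ε * ‖v'‖ := by rw [norm_smul, Real.norm_of_nonneg hε0.le]
      _ ≤ 1 := by linarith
  · rw [map_add, map_smul, smul_eq_mul]
    nlinarith

/-- A maximiser on the lens of a functional vanishing on `w` lies on `Ew w`. -/
lemma max_mem_Ew {φ : X →L[ℝ] ℝ} (hw : w ≠ 0) (hφ0 : φ w = 0) (hφ : φ ≠ 0) {x : X}
    (hx : x ∈ Lens w) (hmax : ∀ z ∈ Lens w, φ z ≤ φ x) : x ∈ Ew w := by
  have hn0 : 0 < ‖w‖ := norm_pos_iff.2 hw
  by_contra hnot
  have hcases : ‖x‖ < 1 ∨ ‖x - w‖ < 1 := by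
    by_contra hcon
    push Not at hcon
    exact hnot ⟨le_antisymm hx.1 hcon.1, le_antisymm hx.2 hcon.2⟩
  -- it suffices to produce an interior point with the same value
  suffices hint : ∃ x', ‖x'‖ < 1 ∧ ‖x' - w‖ < 1 ∧ φ x' = φ x by
    obtain ⟨x', h1, h2, h3⟩ := hint
    obtain ⟨z, hz, hz2⟩ := not_max_of_interior hφ h1 h2
    have := hmax z hz
    linarith
  by_cases h1 : ‖x‖ < 1
  · by_cases h2 : ‖x - w‖ < 1
    · exact ⟨x, h1, h2, rfl⟩
    · -- move along `w`
      have hx2 : ‖x - w‖ = 1 := le_antisymm hx.2 (not_lt.1 h2)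
      set ε : ℝ := min (1 / 2) ((1 - ‖x‖) / (2 * ‖w‖)) with hε
      have hε0 : 0 < ε := lt_min (by norm_num) (div_pos (by linarith) (by positivity))
      have hε1 : ε ≤ 1 / 2 := min_le_left _ _
      have hε2 : ε * ‖w‖ < 1 - ‖x‖ := by
        have : ε ≤ (1 - ‖x‖) / (2 * ‖w‖) := min_le_right _ _
        have h3 : ε * ‖w‖ ≤ (1 - ‖x‖) / (2 * ‖w‖) * ‖w‖ := by gcongr
        have h4 : (1 - ‖x‖) / (2 * ‖w‖) * ‖w‖ = (1 - ‖x‖) / 2 := by field_simp
        linarith
      refine ⟨x + ε • w, ?_, ?_, ?_⟩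
      · calc ‖x + ε • w‖ ≤ ‖x‖ + ‖ε • w‖ := norm_add_le _ _
          _ = ‖x‖ + ε * ‖w‖ := by rw [norm_smul, Real.norm_of_nonneg hε0.le]
          _ < 1 := by linarith
      · have hne : x - w ≠ x := by
          intro h
          apply hw
          have := sub_eq_self.1 h
          exact this
        have hlt := norm_combo_lt_of_ne (a := 1 - ε) (b := ε) hx.2 hx.1 hne (by linarith) hε0
          (by ring)
        have : (1 - ε) • (x - w) + ε • x = x + ε • w - w := by
          rw [sub_smul, one_smul, smul_sub]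
          abel
        rwa [this] at hlt
      · rw [map_add, map_smul, hφ0, smul_zero, add_zero]
  · have hx1 : ‖x‖ = 1 := le_antisymm hx.1 (not_lt.1 h1)
    have h2 : ‖x - w‖ < 1 := by
      rcases hcases with h | h
      · exact absurd h h1
      · exact h
    set ε : ℝ := min (1 / 2) ((1 - ‖x - w‖) / (2 * ‖w‖)) with hε
    have hε0 : 0 < ε := lt_min (by norm_num) (div_pos (by linarith) (by positivity))
    have hε1 : ε ≤ 1 / 2 := min_le_left _ _
    have hε2 : ε * ‖w‖ < 1 - ‖x - w‖ := by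
      have : ε ≤ (1 - ‖x - w‖) / (2 * ‖w‖) := min_le_right _ _
      have h3 : ε * ‖w‖ ≤ (1 - ‖x - w‖) / (2 * ‖w‖) * ‖w‖ := by gcongr
      have h4 : (1 - ‖x - w‖) / (2 * ‖w‖) * ‖w‖ = (1 - ‖x - w‖) / 2 := by field_simp
      linarith
    refine ⟨x - ε • w, ?_, ?_, ?_⟩
    · have hne : x ≠ x - w := by
        intro h
        apply hw
        have := sub_eq_self.1 h.symm
        exact this
      have hlt := norm_combo_lt_of_ne (a := 1 - ε) (b := ε) hx.1 hx.2 hne (by linarith) hε0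
        (by ring)
      have : (1 - ε) • x + ε • (x - w) = x - ε • w := by
        rw [sub_smul, one_smul, smul_sub]
        abel
      rwa [this] at hlt
    · have : x - ε • w - w = (x - w) - ε • w := by abel
      rw [this]
      calc ‖(x - w) - ε • w‖ ≤ ‖x - w‖ + ‖ε • w‖ := norm_sub_le _ _
        _ = ‖x - w‖ + ε * ‖w‖ := by rw [norm_smul, Real.norm_of_nonneg hε0.le]
        _ < 1 := by linarith
    · rw [map_sub, map_smul, hφ0, smul_zero, sub_zero]

/-- Uniqueness of the maximiser. -/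
lemma max_unique {φ : X →L[ℝ] ℝ} (hw : w ≠ 0) (hφ0 : φ w = 0) (hφ : φ ≠ 0) {x x' : X}
    (hx : x ∈ Lens w) (hmax : ∀ z ∈ Lens w, φ z ≤ φ x) (hx' : x' ∈ Lens w)
    (hmax' : ∀ z ∈ Lens w, φ z ≤ φ x') : x = x' := by
  by_contra hne
  have hval : φ x = φ x' := le_antisymm (hmax' x hx) (hmax x' hx')
  set m : X := (1 / 2 : ℝ) • x + (1 / 2 : ℝ) • x' with hm
  have hm1 : ‖m‖ < 1 := norm_combo_lt_of_ne hx.1 hx'.1 hne (by norm_num) (by norm_num) (by norm_num)
  have hm2 : ‖m - w‖ ≤ 1 := by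
    have : m - w = (1 / 2 : ℝ) • (x - w) + (1 / 2 : ℝ) • (x' - w) := by
      rw [hm, smul_sub, smul_sub]
      have h3 : w = (1 / 2 : ℝ) • w + (1 / 2 : ℝ) • w := by
        rw [← add_smul]; norm_num
      nth_rewrite 1 [h3]
      abel
    rw [this]
    calc _ ≤ ‖(1 / 2 : ℝ) • (x - w)‖ + ‖(1 / 2 : ℝ) • (x' - w)‖ := norm_add_le _ _
      _ = (1 / 2) * ‖x - w‖ + (1 / 2) * ‖x' - w‖ := by
          rw [norm_smul, norm_smul]; norm_num
      _ ≤ (1 / 2) * 1 + (1 / 2) * 1 := by
          have := hx.2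
          have := hx'.2
          gcongr
      _ = 1 := by norm_num
  have hmL : m ∈ Lens w := ⟨hm1.le, hm2⟩
  have hφm : φ m = φ x := by
    rw [hm, map_add, map_smul, map_smul, ← hval, smul_eq_mul]
    ring
  have hmmax : ∀ z ∈ Lens w, φ z ≤ φ m := fun z hz => by rw [hφm]; exact hmax z hz
  have := max_mem_Ew hw hφ0 hφ hmL hmmax
  exact absurd this.1 hm1.ne

lemma half_mem_Lens (hw2 : ‖w‖ < 2) : (1 / 2 : ℝ) • w ∈ Lens w := by
  have h1 : ‖(1 / 2 : ℝ) • w‖ ≤ 1 := by
    rw [norm_smul]; norm_num; linarith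
  refine ⟨h1, ?_⟩
  have : (1 / 2 : ℝ) • w - w = -((1 / 2 : ℝ) • w) := by
    have h3 : w = (1 / 2 : ℝ) • w + (1 / 2 : ℝ) • w := by
      rw [← add_smul]; norm_num
    nth_rewrite 2 [h3]
    abel
  rw [this, norm_neg]
  exact h1

/-- Existence of a maximiser. -/
lemma exists_max [FiniteDimensional ℝ X] (hw2 : ‖w‖ < 2) (φ : X →L[ℝ] ℝ) :
    ∃ x ∈ Lens w, ∀ z ∈ Lens w, φ z ≤ φ x := by
  obtain ⟨x, hx, hmax⟩ := (isCompact_Lens w).exists_isMaxOn ⟨_, half_mem_Lens hw2⟩
    φ.continuous.continuousOn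
  exact ⟨x, hx, fun z hz => hmax hz⟩

end Max

end Strict

end Vale.Agent.Lib.P084.Dim4
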