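import Vale.Agent.Lib.P084.Regularity
import Vale.Agent.Lib.P084.Dim4.Lens

/-! Additivity of a sphere isometry on unit triples. -/

set_option linter.unusedSectionVars false

namespace Vale.Agent.Lib.P084.Dim4

open Metric Set Filter Topology

variable {X Y : Type*} [NormedAddCommGroup X] [NormedSpace ℝ X]
  [NormedAddCommGroup Y] [NormedSpace ℝ Y]

/-- Two vectors of norm at most `r` at distance `2 r` are opposite. -/
lemma opposite_of_dist [StrictConvexSpace ℝ Y] {p q : Y} {r : ℝ} (hp : ‖p‖ ≤ r) (hq : ‖q‖ ≤ r)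
    (h : ‖p - q‖ = 2 * r) : p = -q := by
  have h1 : ‖p + -q‖ = 2 * r := by rw [← sub_eq_add_neg]; exact h
  have h2 : ‖p + -q‖ ≤ ‖p‖ + ‖-q‖ := norm_add_le _ _
  rw [norm_neg] at h2
  have h3 : ‖p‖ = r := by linarith
  have h4 : ‖q‖ = r := by linarith
  apply eq_of_norm_eq_of_norm_add_eq
  · rw [norm_neg, h3, h4]
  · rw [norm_neg, h1, h3, h4]; ring

lemma SphereIso.continuousOn {g : X → Y} (hg : SphereIso g) : ContinuousOn g {a | ‖a‖ = 1} := by
  rw [Metric.continuousOn_iff]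
  intro a ha ε hε
  refine ⟨ε, hε, fun b hb hab => ?_⟩
  rw [dist_eq_norm, hg.dist_eq b a hb ha, ← dist_eq_norm]
  exact hab

/-- Additivity on unit triples. -/
theorem SphereIso.add_eq [FiniteDimensional ℝ X] [StrictConvexSpace ℝ Y] {g : X → Y}
    (hg : SphereIso g) {x z : X} (hx : ‖x‖ = 1) (hz : ‖z‖ = 1) (hxz : ‖x + z‖ = 1) :
    g (x + z) = g x + g z := by
  set y : X := x + z with hy
  set y' : Y := g y with hy'
  have hy'1 : ‖y'‖ = 1 := hg.norm_one y hxz
  set D : X → ℝ := fun a => ‖g (y - a) - (y' - g a)‖ with hD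
  have hxE : x ∈ Ew y := by
    refine ⟨hx, ?_⟩
    have : x - y = -z := by rw [hy]; abel
    rw [this, norm_neg]; exact hz
  -- the involution on the target side
  have hτ : ∀ a ∈ Ew y, ∃ a' ∈ Ew y, g a' = y' - g a := by
    intro a ha
    have h1 : ‖y' - g a‖ = 1 := by
      rw [hy', hg.dist_eq y a hxz ha.1, norm_sub_rev]; exact ha.2
    obtain ⟨a', ha', hga'⟩ := hg.surj _ h1
    refine ⟨a', ⟨ha', ?_⟩, hga'⟩
    rw [← hg.dist_eq a' y ha' hxz, hga']
    have : y' - g a - g y = - g a := by rw [hy']; abel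
    rw [this, norm_neg]
    exact hg.norm_one a ha.1
  have hDρ : ∀ a, a ∈ Ew y → D (y - a) = D a := by
    intro a _
    simp only [hD]
    have e1 : y - (y - a) = a := by abel
    rw [e1]
    have e2 : g a - (y' - g (y - a)) = g (y - a) - (y' - g a) := by abel
    rw [e2]
  have hDτ : ∀ a ∈ Ew y, ∀ a' ∈ Ew y, g a' = y' - g a → D a' = D a := by
    intro a ha a' ha' hga'
    simp only [hD]
    have e1 : y' - g a' = g a := by rw [hga']; abel
    rw [e1, hg.dist_eq _ _ (Ew_rho ha').1 ha.1, ← hga', hg.dist_eq _ _ (Ew_rho ha).1 ha'.1]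
    have e2 : y - a' - a = y - a - a' := by abel
    rw [e2]
  by_contra hne
  have hDx : D x ≠ 0 := by
    intro h0
    apply hne
    have h1 : g (y - x) - (y' - g x) = 0 := norm_eq_zero.1 h0
    have h2 : y - x = z := by rw [hy]; abel
    rw [h2] at h1
    have h3 : g y = g x + g z := by
      have := sub_eq_zero.1 h1
      rw [this, hy']; abel
    exact h3
  set ε : ℝ := D x with hε
  have hε0 : 0 < ε := lt_of_le_of_ne (norm_nonneg _) (Ne.symm hDx)
  -- the compact set
  set M : Set X := {a | a ∈ Ew y ∧ ε ≤ D a} with hM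
  have hgc := SphereIso.continuousOn hg
  have hDc : ContinuousOn D (Ew y) := by
    simp only [hD]
    apply ContinuousOn.norm
    apply ContinuousOn.sub
    · exact hgc.comp (continuous_const.sub continuous_id).continuousOn fun a ha => (Ew_rho ha).1
    · exact continuousOn_const.sub (hgc.mono fun a ha => ha.1)
  have hMclosed : IsClosed M := by
    have : M = Ew y ∩ D ⁻¹' (Ici ε) := by
      ext a; simp [hM]
    rw [this]
    exact hDc.preimage_isClosed_of_isClosed (isClosed_Ew y) isClosed_Ici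
  have hMcomp : IsCompact M := (isCompact_Ew y).of_isClosed_subset hMclosed fun a ha => ha.1
  have hxM : x ∈ M := ⟨hxE, le_refl _⟩
  obtain ⟨x₁, hx₁, hmax⟩ := hMcomp.exists_isMaxOn ⟨x, hxM⟩
    (f := fun a => ‖a - (1 / 2 : ℝ) • y‖) (by fun_prop)
  set r : ℝ := ‖x₁ - (1 / 2 : ℝ) • y‖ with hr
  have hrmax : ∀ a ∈ M, ‖a - (1 / 2 : ℝ) • y‖ ≤ r := fun a ha => hmax ha
  -- every point of `M` has its image close to the midpoint
  have hclose : ∀ a ∈ M, ‖g a - (1 / 2 : ℝ) • y'‖ ≤ r := by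
    intro a ha
    obtain ⟨a', ha', hga'⟩ := hτ a ha.1
    have ha'M : a' ∈ M := ⟨ha', by rw [hDτ a ha.1 a' ha' hga']; exact ha.2⟩
    have h1 : ‖g a - g a'‖ ≤ 2 * r := by
      rw [hg.dist_eq a a' ha.1.1 ha'.1]
      have : a - a' = (a - (1 / 2 : ℝ) • y) - (a' - (1 / 2 : ℝ) • y) := by abel
      rw [this]
      have h2 := norm_sub_le (a - (1 / 2 : ℝ) • y) (a' - (1 / 2 : ℝ) • y)
      have h3 := hrmax a ha
      have h4 := hrmax a' ha'M
      linarith
    rw [hga'] at h1
    have e : g a - (y' - g a) = (2 : ℝ) • (g a - (1 / 2 : ℝ) • y') := by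
      rw [smul_sub, smul_smul, two_smul]
      norm_num
      abel
    rw [e, norm_smul] at h1
    norm_num at h1
    linarith
  have hx₂M : y - x₁ ∈ M := ⟨Ew_rho hx₁.1, by rw [hDρ x₁ hx₁.1]; exact hx₁.2⟩
  have hdist : ‖(g x₁ - (1 / 2 : ℝ) • y') - (g (y - x₁) - (1 / 2 : ℝ) • y')‖ = 2 * r := by
    have e : (g x₁ - (1 / 2 : ℝ) • y') - (g (y - x₁) - (1 / 2 : ℝ) • y') = g x₁ - g (y - x₁) := by
      abel
    rw [e, hg.dist_eq _ _ hx₁.1.1 (Ew_rho hx₁.1).1, hr]
    have e2 : x₁ - (y - x₁) = (2 : ℝ) • (x₁ - (1 / 2 : ℝ) • y) := by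
      rw [smul_sub, smul_smul, two_smul]
      norm_num
      abel
    rw [e2, norm_smul]
    norm_num
  have hopp := opposite_of_dist (hclose x₁ hx₁) (hclose _ hx₂M) hdist
  have hzero : D x₁ = 0 := by
    simp only [hD]
    have e : g (y - x₁) - (y' - g x₁) = 0 := by
      have h1 : g x₁ + g (y - x₁) = y' := by
        have h2 : (g x₁ - (1 / 2 : ℝ) • y') + (g (y - x₁) - (1 / 2 : ℝ) • y') = 0 := by
          rw [hopp]; abel
        have h3 : (1 / 2 : ℝ) • y' + (1 / 2 : ℝ) • y' = y' := by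
          rw [← add_smul]; norm_num
        calc g x₁ + g (y - x₁) = ((g x₁ - (1 / 2 : ℝ) • y') + (g (y - x₁) - (1 / 2 : ℝ) • y'))
              + ((1 / 2 : ℝ) • y' + (1 / 2 : ℝ) • y') := by abel
          _ = y' := by rw [h2, h3, zero_add]
      rw [← h1]
      abel
    rw [e, norm_zero]
  have := hx₁.2
  rw [hzero] at this
  linarith

end Vale.Agent.Lib.P084.Dim4
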