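import Vale.Agent.Lib.P084.Dim4.UC

/-! The set `Ew w`: a sphere with a free involution, far sets, and the constancy theorem. -/

set_option linter.unusedSectionVars false

namespace Vale.Agent.Lib.P084.Dim4

open Metric Set Filter Topology

variable {X : Type*} [NormedAddCommGroup X] [NormedSpace ℝ X]

/-- A projection along `w` onto an inner product space. -/
lemma exists_proj [FiniteDimensional ℝ X] {w : X} (hw : w ≠ 0) {k : ℕ}
    (hk : Module.finrank ℝ X = k + 2) :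
    ∃ π : X →L[ℝ] EuclideanSpace ℝ (Fin (k + 1)),
      (∀ x, π x = 0 ↔ ∃ a : ℝ, x = a • w) ∧ Function.Surjective π := by
  set K : Submodule ℝ X := ℝ ∙ w with hKdef
  have hK : Module.finrank ℝ K = 1 := finrank_span_singleton hw
  have hq : Module.finrank ℝ (X ⧸ K) = k + 1 := by
    have := Submodule.finrank_quotient_add_finrank K
    omega
  have he : Module.finrank ℝ (X ⧸ K) = Module.finrank ℝ (EuclideanSpace ℝ (Fin (k + 1))) := by
    simp [hq]
  let e := LinearEquiv.ofFinrankEq _ _ he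
  let l : X →ₗ[ℝ] EuclideanSpace ℝ (Fin (k + 1)) := e.toLinearMap.comp K.mkQ
  refine ⟨l.toContinuousLinearMap, ?_, ?_⟩
  · intro x
    show e (K.mkQ x) = 0 ↔ _
    rw [e.map_eq_zero_iff, Submodule.mkQ_apply, Submodule.Quotient.mk_eq_zero,
      Submodule.mem_span_singleton]
    constructor
    · rintro ⟨a, rfl⟩; exact ⟨a, rfl⟩
    · rintro ⟨a, rfl⟩; exact ⟨a, rfl⟩
  · exact e.surjective.comp K.mkQ_surjective

/-- A closed graph into a compact space gives continuity. -/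
lemma continuous_of_closed_graph {A B : Type*} [TopologicalSpace A] [TopologicalSpace B]
    [CompactSpace B] (q : A → B) (h : IsClosed {p : A × B | q p.1 = p.2}) : Continuous q := by
  rw [continuous_iff_isClosed]
  intro C hC
  have hset : q ⁻¹' C = Prod.fst '' ({p : A × B | q p.1 = p.2} ∩ Prod.snd ⁻¹' C) := by
    ext a
    constructor
    · intro ha
      exact ⟨(a, q a), ⟨rfl, ha⟩, rfl⟩
    · rintro ⟨⟨a', b⟩, ⟨h1, h2⟩, rfl⟩
      have h1' : q a' = b := h1
      show q a' ∈ C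
      rw [h1']
      exact h2
  rw [hset]
  exact isClosedMap_fst_of_compactSpace _ (h.inter (hC.preimage continuous_snd))

section Proj

variable {E' : Type*} [NormedAddCommGroup E'] [InnerProductSpace ℝ E'] [FiniteDimensional ℝ E']
  [FiniteDimensional ℝ X] [StrictConvexSpace ℝ X]

/-- A projection along `w`, when `w` is a nonzero vector of norm less than two. -/
structure Proj (w : X) (π : X →L[ℝ] E') : Prop where
  hw : w ≠ 0
  hw2 : ‖w‖ < 2
  ker : ∀ x, π x = 0 ↔ ∃ a : ℝ, x = a • w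
  surj : Function.Surjective π

/-- The functional on `X` attached to a vector of the quotient. -/
noncomputable def phi (π : X →L[ℝ] E') (v : E') : X →L[ℝ] ℝ := (innerSL ℝ v).comp π

lemma phi_apply (π : X →L[ℝ] E') (v : E') (x : X) : phi π v x = inner ℝ v (π x) := rfl

variable {w : X} {π : X →L[ℝ] E'}

lemma Proj.pi_w (h : Proj w π) : π w = 0 := (h.ker w).2 ⟨1, by simp⟩

lemma Proj.phi_w (h : Proj w π) (v : E') : phi π v w = 0 := by
  rw [phi_apply, h.pi_w, inner_zero_right]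

lemma Proj.phi_ne (h : Proj w π) {v : E'} (hv : v ≠ 0) : phi π v ≠ 0 := by
  intro h0
  obtain ⟨e, he⟩ := h.surj v
  have h1 : phi π v e = 0 := by rw [h0]; rfl
  rw [phi_apply, he] at h1
  exact hv (inner_self_eq_zero.1 h1)

lemma Proj.exists_Q (h : Proj w π) [Nontrivial E'] :
    ∃ Q : E' → Ew w, ∀ v, v ≠ 0 → ∀ z ∈ Lens w, phi π v z ≤ phi π v (Q v) := by
  obtain ⟨t, ht⟩ := exists_ne (0 : E')
  obtain ⟨x₀, hx₀, -⟩ := Ew_exists h.hw h.hw2 π h.pi_w h.surj ht
  have hex : ∀ v : E', ∃ q : Ew w, v ≠ 0 → ∀ z ∈ Lens w, phi π v z ≤ phi π v q := by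
    intro v
    by_cases hv : v = 0
    · exact ⟨⟨x₀, hx₀⟩, fun h' => absurd hv h'⟩
    · obtain ⟨x, hx, hmax⟩ := exists_max h.hw2 (phi π v)
      exact ⟨⟨x, max_mem_Ew h.hw (h.phi_w v) (h.phi_ne hv) hx hmax⟩, fun _ => hmax⟩
  choose Q hQ using hex
  exact ⟨Q, hQ⟩

lemma Proj.Q_unique (h : Proj w π) {Q : E' → Ew w}
    (hQ : ∀ v, v ≠ 0 → ∀ z ∈ Lens w, phi π v z ≤ phi π v (Q v)) {v : E'} (hv : v ≠ 0) {q : X}
    (hq : q ∈ Lens w) (hmax : ∀ z ∈ Lens w, phi π v z ≤ phi π v q) : (Q v : X) = q :=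
  max_unique h.hw (h.phi_w v) (h.phi_ne hv) (Ew_subset_Lens w (Q v).2) (hQ v hv) hq hmax

lemma Proj.continuousOn_Q (h : Proj w π) {Q : E' → Ew w}
    (hQ : ∀ v, v ≠ 0 → ∀ z ∈ Lens w, phi π v z ≤ phi π v (Q v)) :
    ContinuousOn Q {v | v ≠ 0} := by
  have hcomp : CompactSpace (Ew w) := isCompact_iff_compactSpace.1 (isCompact_Ew w)
  rw [continuousOn_iff_continuous_domRestrict]
  apply continuous_of_closed_graph
  have hset : {p : ({v : E' | v ≠ 0} : Set E') × Ew w |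
      ({v : E' | v ≠ 0} : Set E').domRestrict Q p.1 = p.2} =
      ⋂ z : Ew w, {p : ({v : E' | v ≠ 0} : Set E') × Ew w |
        inner ℝ (p.1 : E') (π (z : X)) ≤ inner ℝ (p.1 : E') (π (p.2 : X))} := by
    ext ⟨⟨v, hv⟩, q⟩
    simp only [mem_ofPred_eq, mem_iInter, domRestrict_apply]
    constructor
    · rintro rfl z
      exact hQ v hv z (Ew_subset_Lens w z.2)
    · intro hz
      apply Subtype.ext
      have hqmax : ∀ z ∈ Lens w, phi π v z ≤ phi π v q :=
        fun z hz' => (hQ v hv z hz').trans (hz (Q v))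
      exact h.Q_unique hQ hv (Ew_subset_Lens w q.2) hqmax
  rw [hset]
  refine isClosed_iInter fun z => isClosed_le ?_ ?_
  · exact continuous_fst.subtype_val.inner continuous_const
  · exact continuous_fst.subtype_val.inner
      (π.continuous.comp (continuous_subtype_val.comp continuous_snd))

/-- Star shaped parameter sets. -/
lemma isPreconnected_param {a : E'} (ha : a ≠ 0) :
    IsPreconnected {v : E' | v ≠ 0 ∧ inner ℝ v a ≤ (0 : ℝ)} := by
  have hstar : StarConvex ℝ (-a) {v : E' | v ≠ 0 ∧ inner ℝ v a ≤ (0 : ℝ)} := by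
    intro y hy s t hs ht hst
    have hin : inner ℝ (s • (-a) + t • y) a = -(s * inner ℝ a a) + t * inner ℝ y a := by
      rw [inner_add_left, inner_smul_left, inner_smul_left, inner_neg_left]
      simp
    have haa : 0 < inner ℝ a a := real_inner_self_pos.2 ha
    have h2 : t * inner ℝ y a ≤ 0 := mul_nonpos_of_nonneg_of_nonpos ht hy.2
    have h3 : 0 ≤ s * inner ℝ a a := mul_nonneg hs haa.le
    refine ⟨?_, ?_⟩
    · rcases hs.eq_or_lt with h0 | h0
      · have ht1 : t = 1 := by linarith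
        rw [← h0, ht1, zero_smul, one_smul, zero_add]
        exact hy.1
      · intro hzero
        rw [hzero, inner_zero_left] at hin
        have : 0 < s * inner ℝ a a := mul_pos h0 haa
        linarith
    · rw [hin]; linarith
  have hne : -a ∈ {v : E' | v ≠ 0 ∧ inner ℝ v a ≤ (0 : ℝ)} := by
    refine ⟨neg_ne_zero.2 ha, ?_⟩
    rw [inner_neg_left]
    have haa : 0 < inner ℝ a a := real_inner_self_pos.2 ha
    linarith
  exact (hstar.isPathConnected hne).isConnected.isPreconnected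

/-- A vector orthogonal to two given vectors. -/
lemma exists_orth (hdim : 3 ≤ Module.finrank ℝ E') (a b : E') :
    ∃ v : E', v ≠ 0 ∧ inner ℝ v a = (0 : ℝ) ∧ inner ℝ v b = (0 : ℝ) := by
  let l : E' →ₗ[ℝ] (ℝ × ℝ) :=
    ((innerₗ E').flip a).prod ((innerₗ E').flip b)
  have hlt : Module.finrank ℝ (ℝ × ℝ) < Module.finrank ℝ E' := by
    rw [Module.finrank_prod]
    simp
    omega
  have hker := LinearMap.ker_ne_bot_of_finrank_lt hlt (f := l)
  obtain ⟨v, hv, hv0⟩ := Submodule.exists_mem_ne_zero_of_ne_bot hker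
  have h1 : l v = 0 := hv
  refine ⟨v, hv0, ?_, ?_⟩
  · exact congrArg Prod.fst h1
  · exact congrArg Prod.snd h1

/-- The point opposite to `s` maximises a functional nonpositive at `s`. -/
lemma Proj.exists_support (h : Proj w π) {x₀ : X} (hx₀ : x₀ ∈ Ew w) :
    ∃ v : E', v ≠ 0 ∧ inner ℝ v (π (w - x₀)) ≤ (0 : ℝ) ∧ ∀ z ∈ Lens w, phi π v z ≤ phi π v x₀ := by
  have hw := h.hw
  have hw2 := h.hw2
  set I : Set X := ball 0 1 ∩ ball w 1 with hI
  have hIconv : Convex ℝ I := (convex_ball _ _).inter (convex_ball _ _)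
  have hIopen : IsOpen I := isOpen_ball.inter isOpen_ball
  set U : Set E' := π '' I with hU
  have hUconv : Convex ℝ U := hIconv.linear_image π.toLinearMap
  have hUopen : IsOpen U := by
    have hopen : IsOpenMap (π.toLinearMap : X → E') :=
      LinearMap.isOpenMap_of_finiteDimensional π.toLinearMap h.surj
    exact hopen _ hIopen
  have hmemI : ∀ x, x ∈ I ↔ ‖x‖ < 1 ∧ ‖x - w‖ < 1 := by
    intro x
    simp only [hI, mem_inter_iff, mem_ball_iff_norm, sub_zero]
  have hnot : π x₀ ∉ U := by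
    rintro ⟨u, hu, hπu⟩
    have hu' := (hmemI u).1 hu
    have h0 : π (u - x₀) = 0 := by rw [map_sub, hπu, sub_self]
    obtain ⟨β, hβ⟩ := (h.ker _).1 h0
    have hrep : u = x₀ + β • w := by rw [← hβ]; abel
    have h1 : ‖x₀ + β • w‖ ≤ 1 := by rw [← hrep]; exact hu'.1.le
    have h2 : ‖x₀ + (β - 1) • w‖ ≤ 1 := by
      have e : x₀ + (β - 1) • w = u - w := by
        rw [hrep, sub_smul, one_smul]; abel
      rw [e]; exact hu'.2.le
    have h3 := (line_le hw hx₀ h1).1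
    have h4 := (line_le hw hx₀ h2).2
    have hβ0 : β = 0 := by linarith
    rw [hβ0, zero_smul, add_zero] at hrep
    rw [hrep] at hu'
    exact absurd hu'.1 (by rw [hx₀.1]; exact lt_irrefl _)
  obtain ⟨f, hf⟩ := geometric_hahn_banach_open_point hUconv hUopen hnot
  set v : E' := (InnerProductSpace.toDual ℝ E').symm f with hv
  have hvf : ∀ a, inner ℝ v a = f a := fun a => InnerProductSpace.toDual_symm_apply
  have hhalf : (1 / 2 : ℝ) • w ∈ I := by
    have h1 := half_mem_Lens hw2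
    have hn : ‖(1 / 2 : ℝ) • w‖ < 1 := by
      rw [norm_smul]; norm_num; linarith
    rw [hmemI]
    refine ⟨hn, ?_⟩
    have e : (1 / 2 : ℝ) • w - w = -((1 / 2 : ℝ) • w) := by
      module
    rw [e, norm_neg]
    exact hn
  have hπhalf : π ((1 / 2 : ℝ) • w) = 0 := by rw [map_smul, h.pi_w, smul_zero]
  have hpos : 0 < f (π x₀) := by
    have := hf _ (mem_image_of_mem π hhalf)
    rw [hπhalf, map_zero] at this
    exact this
  have hv0 : v ≠ 0 := by
    intro h0
    have h1 := hvf (π x₀)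
    rw [h0, inner_zero_left] at h1
    linarith
  refine ⟨v, hv0, ?_, ?_⟩
  · rw [map_sub, h.pi_w, zero_sub, inner_neg_right, hvf]
    linarith
  · intro z hz
    rw [phi_apply, phi_apply, hvf, hvf]
    by_contra hcon
    have hlt : f (π x₀) < f (π z) := not_le.1 hcon
    have hzpos : 0 < f (π z) := by linarith
    set ε : ℝ := (f (π z) - f (π x₀)) / f (π z) with hε
    have hε0 : 0 < ε := div_pos (by linarith) hzpos
    have hε1 : ε < 1 := by
      rw [hε, div_lt_one hzpos]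
      linarith
    set z' : X := (1 - ε) • z + ε • ((1 / 2 : ℝ) • w) with hz'
    have hn : ‖(1 / 2 : ℝ) • w‖ < 1 := by
      rw [norm_smul]; norm_num; linarith
    have hz'I : z' ∈ I := by
      rw [hmemI]
      constructor
      · calc ‖z'‖ ≤ ‖(1 - ε) • z‖ + ‖ε • ((1 / 2 : ℝ) • w)‖ := norm_add_le _ _
          _ = (1 - ε) * ‖z‖ + ε * ‖(1 / 2 : ℝ) • w‖ := by
              rw [norm_smul, norm_smul (ε : ℝ), Real.norm_of_nonneg (by linarith),
                Real.norm_of_nonneg hε0.le]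
          _ < 1 := by
              have := hz.1
              nlinarith
      · have e : z' - w = (1 - ε) • (z - w) + ε • (-((1 / 2 : ℝ) • w)) := by
          rw [hz']
          module
        rw [e]
        calc ‖(1 - ε) • (z - w) + ε • (-((1 / 2 : ℝ) • w))‖
            ≤ ‖(1 - ε) • (z - w)‖ + ‖ε • (-((1 / 2 : ℝ) • w))‖ := norm_add_le _ _
          _ = (1 - ε) * ‖z - w‖ + ε * ‖(1 / 2 : ℝ) • w‖ := by
              rw [norm_smul, norm_smul (ε : ℝ), norm_neg, Real.norm_of_nonneg (by linarith),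
                Real.norm_of_nonneg hε0.le]
          _ < 1 := by
              have := hz.2
              nlinarith
    have h1 := hf _ (mem_image_of_mem π hz'I)
    rw [hz', map_add, map_smul, map_smul, hπhalf, smul_zero, add_zero, map_smul, smul_eq_mul] at h1
    have h2 : (1 - ε) * f (π z) = f (π x₀) := by
      rw [hε]
      field_simp
      ring
    linarith

/-- The involution on `Ew w`. -/
def rho (w : X) (z : Ew w) : Ew w := ⟨w - z, Ew_rho z.2⟩

lemma continuous_rho (w : X) : Continuous (rho w) :=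
  Continuous.subtype_mk (continuous_const.sub continuous_subtype_val) _

lemma rho_rho (w : X) (z : Ew w) : rho w (rho w z) = z := by
  apply Subtype.ext
  show w - (w - (z : X)) = z
  abel

/-- The far set of a point. -/
def farSet (π : X →L[ℝ] E') (Q : E' → Ew w) (s : Ew w) : Set (Ew w) :=
  Q '' {v | v ≠ 0 ∧ inner ℝ v (π (s : X)) ≤ (0 : ℝ)}

lemma Proj.farData (h : Proj w π) (hdim : 3 ≤ Module.finrank ℝ E') {η : ℝ}
    (hη : ∀ a b : X, ‖a‖ ≤ 1 → ‖b‖ ≤ 1 → 2 - η ≤ ‖a + b‖ → ‖a - b‖ ≤ 1 / 2) (hwη : ‖w‖ ≤ η)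
    {Q : E' → Ew w} (hQ : ∀ v, v ≠ 0 → ∀ z ∈ Lens w, phi π v z ≤ phi π v (Q v)) :
    FarData (rho w) (fun s t : Ew w => ‖(s : X) - t‖) (farSet π Q) := by
  refine ⟨?_, ?_, ?_, ?_, ?_, ?_, ?_⟩
  · exact ((continuous_subtype_val.comp continuous_fst).sub
      (continuous_subtype_val.comp continuous_snd)).norm
  · intro s t
    exact norm_sub_rev _ _
  · intro s
    simp
  · intro s
    have hπ : π (s : X) ≠ 0 := pi_ne_zero h.hw2 π h.ker s.2
    exact (isPreconnected_param hπ).image Q ((h.continuousOn_Q hQ).mono fun v hv => hv.1)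
  · intro s
    obtain ⟨v, hv, hle, hmax⟩ := h.exists_support (Ew_rho s.2)
    refine ⟨v, ⟨hv, ?_⟩, ?_⟩
    · have e : w - (w - (s : X)) = s := by abel
      rwa [e] at hle
    · apply Subtype.ext
      exact h.Q_unique hQ hv (Ew_subset_Lens _ (Ew_rho s.2)) hmax
  · rintro s q ⟨v, ⟨hv, hle⟩, rfl⟩
    obtain ⟨c, hc, hψ, q0, hq0, hq0'⟩ := exists_normalised (h.phi_ne hv)
    set ψ : X →L[ℝ] ℝ := c • phi π v with hψdef
    have hψapp : ∀ x, ψ x = c * phi π v x := fun x => rfl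
    obtain ⟨P, hP, hPv⟩ := lens_test_point (w := w) h.hw2.le (ψ := ψ)
      (by rw [hψapp, h.phi_w, mul_zero]) hq0 hq0'
    have hQv := hQ v hv P hP
    have h1 : 1 - η / 2 ≤ ψ (Q v) := by
      have h2 : ψ P ≤ ψ (Q v) := by
        rw [hψapp, hψapp]
        exact mul_le_mul_of_nonneg_left hQv hc.le
      linarith
    have h3 : ψ s ≤ 0 := by
      rw [hψapp, phi_apply]
      exact mul_nonpos_of_nonneg_of_nonpos hc.le hle
    have h4 := far_of_uc hη (ψ := ψ) hψ s.2.1 h3 (Q v).2.1.le h1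
    show 1 ≤ ‖(s : X) - (Q v : X)‖
    rwa [norm_sub_rev]
  · intro s s'
    obtain ⟨v, hv, h1, h2⟩ := exists_orth hdim (π (s : X)) (π (s' : X))
    exact ⟨Q v, ⟨v, ⟨hv, h1.le⟩, rfl⟩, ⟨v, ⟨hv, h2.le⟩, rfl⟩⟩

lemma Proj.exists_theta (h : Proj w π) :
    ∃ Θ : Ew w ≃ₜ sphere (0 : E') 1, ∀ z, Θ (rho w z) = -Θ z := by
  have hcomp : CompactSpace (Ew w) := isCompact_iff_compactSpace.1 (isCompact_Ew w)
  have hπ0 : ∀ z : Ew w, π (z : X) ≠ 0 := fun z => pi_ne_zero h.hw2 π h.ker z.2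
  have hn : ∀ z : Ew w, ‖‖π (z : X)‖⁻¹ • π (z : X)‖ = 1 := fun z => by
    simpa using norm_smul_inv_norm (𝕜 := ℝ) (hπ0 z)
  let θ : Ew w → sphere (0 : E') 1 :=
    fun z => ⟨‖π (z : X)‖⁻¹ • π (z : X), by simpa using hn z⟩
  have hθc : Continuous θ := Continuous.subtype_mk
    (((π.continuous.comp continuous_subtype_val).norm.inv₀
      (fun z => norm_ne_zero_iff.2 (hπ0 z))).smul (π.continuous.comp continuous_subtype_val)) _
  have hinj : Function.Injective θ := by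
    intro a b hab
    have h1 : ‖π (a : X)‖⁻¹ • π (a : X) = ‖π (b : X)‖⁻¹ • π (b : X) := congrArg Subtype.val hab
    have hna : 0 < ‖π (a : X)‖ := norm_pos_iff.2 (hπ0 a)
    have hnb : 0 < ‖π (b : X)‖ := norm_pos_iff.2 (hπ0 b)
    have hκ : π (b : X) = (‖π (b : X)‖ * ‖π (a : X)‖⁻¹) • π (a : X) := by
      rw [mul_smul, h1, smul_smul, mul_inv_cancel₀ hnb.ne', one_smul]
    have h2 := Ew_inj h.hw h.hw2 π h.ker a.2 b.2 (κ := ‖π (b : X)‖ * ‖π (a : X)‖⁻¹)
      (by positivity) hκ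
    exact (Subtype.ext h2).symm
  have hsurj : Function.Surjective θ := by
    rintro ⟨t, ht⟩
    have ht1 : ‖t‖ = 1 := by simpa using ht
    have ht0 : t ≠ 0 := by
      rintro rfl
      simp at ht1
    obtain ⟨x, hx, κ, hκ, hπx⟩ := Ew_exists h.hw h.hw2 π h.pi_w h.surj ht0
    refine ⟨⟨x, hx⟩, Subtype.ext ?_⟩
    show ‖π x‖⁻¹ • π x = t
    rw [hπx, norm_smul, ht1, Real.norm_of_nonneg hκ.le, mul_one, smul_smul,
      inv_mul_cancel₀ hκ.ne', one_smul]
  let e : Ew w ≃ sphere (0 : E') 1 := Equiv.ofBijective θ ⟨hinj, hsurj⟩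
  let Θ : Ew w ≃ₜ sphere (0 : E') 1 := Continuous.homeoOfEquivCompactToT2 (f := e) hθc
  refine ⟨Θ, fun z => Subtype.ext ?_⟩
  show ‖π (w - (z : X))‖⁻¹ • π (w - (z : X)) = -(‖π (z : X)‖⁻¹ • π (z : X))
  rw [map_sub, h.pi_w, zero_sub, norm_neg, smul_neg]

lemma Proj.connectedSpace (h : Proj w π) (hdim : 2 ≤ Module.finrank ℝ E') :
    ConnectedSpace (Ew w) := by
  obtain ⟨Θ, -⟩ := h.exists_theta
  have hrank : 1 < Module.rank ℝ E' := by
    rw [← Module.finrank_eq_rank]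
    exact_mod_cast (by omega : 1 < Module.finrank ℝ E')
  have hconn : IsConnected (sphere (0 : E') 1) := isConnected_sphere hrank 0 zero_le_one
  have hcs : ConnectedSpace (sphere (0 : E') 1) := isConnected_iff_connectedSpace.1 hconn
  exact Θ.symm.surjective.connectedSpace Θ.symm.continuous

theorem Proj.even_rel_const {k : ℕ} [Fact (Module.finrank ℝ E' = k + 1)] (hk : 2 ≤ k)
    (h : Proj w π) {η : ℝ}
    (hη : ∀ a b : X, ‖a‖ ≤ 1 → ‖b‖ ≤ 1 → 2 - η ≤ ‖a + b‖ → ‖a - b‖ ≤ 1 / 2) (hwη : ‖w‖ ≤ η)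
    {f : X → ℝ} (hf : ContinuousOn f (Ew w)) (heven : ∀ x ∈ Ew w, f (w - x) = f x)
    (hrel : ∀ s ∈ Ew w, ∀ t ∈ Ew w, ‖s - t‖ = 1 → f s = f t) :
    ∀ s ∈ Ew w, ∀ t ∈ Ew w, f s = f t := by
  have hfd : Module.finrank ℝ E' = k + 1 := Fact.out
  have hdim3 : 3 ≤ Module.finrank ℝ E' := by omega
  have hnt : Nontrivial E' := by
    apply Module.nontrivial_of_finrank_pos (R := ℝ)
    omega
  have hcs : ConnectedSpace (Ew w) := h.connectedSpace (by omega)
  obtain ⟨Θ, hΘ⟩ := h.exists_theta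
  have hlc0 : LocallyConnectedSpace (sphere (0 : E') 1) :=
    ChartedSpace.locallyConnectedSpace (EuclideanSpace ℝ (Fin k)) (sphere (0 : E') 1)
  have hlc : LocallyConnectedSpace (Ew w) := Θ.locallyConnectedSpace
  have hBU : ∀ Ξ : Ew w → ℂ, Continuous Ξ → (∀ t, Ξ t ≠ 0) → (∀ t, Ξ (rho w t) = -Ξ t) → False := by
    intro Ξ hc h0 hodd
    refine no_odd_sphere hdim3 (Ξ ∘ Θ.symm) (hc.comp Θ.symm.continuous) (fun t => h0 _) fun t => ?_
    have e : Θ.symm (-t) = rho w (Θ.symm t) := by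
      apply Θ.injective
      rw [hΘ, Homeomorph.apply_symm_apply, Homeomorph.apply_symm_apply]
    simp only [Function.comp, e, hodd]
  obtain ⟨Q, hQ⟩ := h.exists_Q
  have hD := h.farData hdim3 hη hwη hQ
  have hfc : Continuous fun z : Ew w => f z := continuousOn_iff_continuous_domRestrict.1 hf
  intro s hs t ht
  exact even_const (continuous_rho w) (rho_rho w) hBU hD hfc (fun z => heven z z.2)
    (fun a b hab => hrel a a.2 b b.2 hab) ⟨s, hs⟩ ⟨t, ht⟩

end Proj

/-- The uniform convexity constant, below one half. -/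
lemma exists_uc' [FiniteDimensional ℝ X] [StrictConvexSpace ℝ X] :
    ∃ η > 0, η ≤ 1 / 2 ∧ ∀ a b : X, ‖a‖ ≤ 1 → ‖b‖ ≤ 1 → 2 - η ≤ ‖a + b‖ → ‖a - b‖ ≤ 1 / 2 := by
  obtain ⟨η, hη, h⟩ := exists_uc (X := X)
  refine ⟨min η (1 / 2), lt_min hη (by norm_num), min_le_right _ _, fun a b ha hb hab => ?_⟩
  apply h a b ha hb
  have := min_le_left η (1 / 2)
  linarith

/-- Existence of a projection structure in a space of dimension at least four. -/
lemma exists_Proj [FiniteDimensional ℝ X] [StrictConvexSpace ℝ X]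
    (hdim : 4 ≤ Module.finrank ℝ X) {w : X} (hw : w ≠ 0) (hw2 : ‖w‖ < 2) :
    ∃ k : ℕ, 2 ≤ k ∧ ∃ π : X →L[ℝ] EuclideanSpace ℝ (Fin (k + 1)), Proj w π := by
  obtain ⟨k, hk⟩ : ∃ k, Module.finrank ℝ X = k + 2 := ⟨Module.finrank ℝ X - 2, by omega⟩
  obtain ⟨π, h1, h2⟩ := exists_proj hw hk
  exact ⟨k, by omega, π, hw, hw2, h1, h2⟩

/-- Constancy of even functions which are invariant under unit distance. -/
theorem even_rel_const_of_small [FiniteDimensional ℝ X] [StrictConvexSpace ℝ X]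
    (hdim : 4 ≤ Module.finrank ℝ X) {η : ℝ} (hη1 : η ≤ 1 / 2)
    (hη : ∀ a b : X, ‖a‖ ≤ 1 → ‖b‖ ≤ 1 → 2 - η ≤ ‖a + b‖ → ‖a - b‖ ≤ 1 / 2)
    {w : X} (hw : w ≠ 0) (hwη : ‖w‖ ≤ η)
    {f : X → ℝ} (hf : ContinuousOn f (Ew w)) (heven : ∀ x ∈ Ew w, f (w - x) = f x)
    (hrel : ∀ s ∈ Ew w, ∀ t ∈ Ew w, ‖s - t‖ = 1 → f s = f t) :
    ∀ s ∈ Ew w, ∀ t ∈ Ew w, f s = f t := by
  obtain ⟨k, hk, π, h⟩ := exists_Proj hdim hw (by linarith : ‖w‖ < 2)
  have : Fact (Module.finrank ℝ (EuclideanSpace ℝ (Fin (k + 1))) = k + 1) := ⟨by simp⟩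
  exact h.even_rel_const hk hη hwη hf heven hrel

theorem connectedSpace_Ew [FiniteDimensional ℝ X] [StrictConvexSpace ℝ X]
    (hdim : 4 ≤ Module.finrank ℝ X) {w : X} (hw : w ≠ 0) (hw2 : ‖w‖ < 2) :
    ConnectedSpace (Ew w) := by
  obtain ⟨k, hk, π, h⟩ := exists_Proj hdim hw hw2
  exact h.connectedSpace (by simp; omega)

theorem Ew_nonempty [FiniteDimensional ℝ X] [StrictConvexSpace ℝ X]
    (hdim : 4 ≤ Module.finrank ℝ X) {w : X} (hw2 : ‖w‖ < 2) : (Ew w).Nonempty := by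
  by_cases hw : w = 0
  · have hnt : Nontrivial X := by
      apply Module.nontrivial_of_finrank_pos (R := ℝ)
      omega
    obtain ⟨a, ha⟩ := exists_ne (0 : X)
    refine ⟨‖a‖⁻¹ • a, ?_, ?_⟩
    · simpa using norm_smul_inv_norm (𝕜 := ℝ) ha
    · rw [hw, sub_zero]
      simpa using norm_smul_inv_norm (𝕜 := ℝ) ha
  · have hcs := connectedSpace_Ew hdim hw hw2
    obtain ⟨z⟩ := hcs.toNonempty
    exact ⟨z, z.2⟩


end Vale.Agent.Lib.P084.Dim4
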