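import Vale.Agent.Lib.P084.Dim4.AddEq
import Vale.Agent.Lib.P084.Dim4.Core

/-! The difference map of a sphere isometry, and the linear extension. -/

set_option linter.unusedSectionVars false

namespace Vale.Agent.Lib.P084.Dim4

open Metric Set Filter Topology

variable {X Y : Type*} [NormedAddCommGroup X] [NormedSpace ℝ X]
  [NormedAddCommGroup Y] [NormedSpace ℝ Y]

/-- The standing assumptions. -/
structure Ctx (g : X → Y) (η : ℝ) : Prop where
  hg : SphereIso g
  hdim : 4 ≤ Module.finrank ℝ X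
  hη0 : 0 < η
  hη1 : η ≤ 1 / 2
  hη : ∀ a b : X, ‖a‖ ≤ 1 → ‖b‖ ≤ 1 → 2 - η ≤ ‖a + b‖ → ‖a - b‖ ≤ 1 / 2

variable [FiniteDimensional ℝ X] [StrictConvexSpace ℝ X] [StrictConvexSpace ℝ Y]
  {g : X → Y} {η : ℝ}

lemma rel_unit (hg : SphereIso g) {w s t : X} (hs : s ∈ Ew w) (ht : t ∈ Ew w)
    (hst : ‖s - t‖ = 1) : g s + g (w - s) = g t + g (w - t) := by
  have e1 : t + (s - t) = s := by abel
  have e2 : w - s + (s - t) = w - t := by abel
  have h1 := SphereIso.add_eq hg ht.1 hst (by rw [e1]; exact hs.1)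
  have h2 := SphereIso.add_eq hg (Ew_rho hs).1 hst (by rw [e2]; exact (Ew_rho ht).1)
  rw [e1] at h1
  rw [e2] at h2
  rw [h1, h2]
  abel

lemma K_const_small (C : Ctx g η) {w : X} (hw : w ≠ 0) (hwη : ‖w‖ ≤ η) {s t : X} (hs : s ∈ Ew w)
    (ht : t ∈ Ew w) : g s + g (w - s) = g t + g (w - t) := by
  by_contra hne
  obtain ⟨l, -, hl⟩ := exists_dual_vector'' ℝ (g s + g (w - s) - (g t + g (w - t)))
  have hgc := SphereIso.continuousOn C.hg
  have hcont : ContinuousOn (fun x => l (g x + g (w - x))) (Ew w) :=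
    l.continuous.comp_continuousOn ((hgc.mono fun a ha => ha.1).add
      (hgc.comp (continuous_const.sub continuous_id).continuousOn fun a ha => (Ew_rho ha).1))
  have heq := even_rel_const_of_small C.hdim C.hη1 C.hη hw hwη hcont
    (fun x _ => by
      show l (g (w - x) + g (w - (w - x))) = l (g x + g (w - x))
      rw [sub_sub_cancel, add_comm])
    (fun a ha b hb hab => by
      show l (g a + g (w - a)) = l (g b + g (w - b))
      rw [rel_unit C.hg ha hb hab]) s hs t ht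
  have heq' : l (g s + g (w - s)) = l (g t + g (w - t)) := heq
  rw [map_sub, heq', sub_self] at hl
  have h0 : ‖g s + g (w - s) - (g t + g (w - t))‖ = 0 := by
    have : ((‖g s + g (w - s) - (g t + g (w - t))‖ : ℝ) : ℝ) = 0 := by
      simpa using hl.symm
    exact this
  exact hne (sub_eq_zero.1 (norm_eq_zero.1 h0))

/-- The chord lemma. -/
lemma chord (C : Ctx g η) {x x' a a' : X} (hx : ‖x‖ = 1) (hx' : ‖x'‖ = 1) (ha : ‖a‖ = 1)
    (ha' : ‖a'‖ = 1) (he : x - x' = a - a') (hsmall : ‖x - x'‖ ≤ η) :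
    g x - g x' = g a - g a' := by
  by_cases h0 : x - x' = 0
  · have h1 : x = x' := sub_eq_zero.1 h0
    have h2 : a = a' := sub_eq_zero.1 (by rw [← he]; exact h0)
    rw [h1, h2, sub_self, sub_self]
  · have hxE : x ∈ Ew (x - x') := by
      refine ⟨hx, ?_⟩
      have e : x - (x - x') = x' := by abel
      rw [e]; exact hx'
    have haE : a ∈ Ew (x - x') := by
      refine ⟨ha, ?_⟩
      have e : a - (x - x') = a' := by rw [he]; abel
      rw [e]; exact ha'
    have h1 := K_const_small C h0 hsmall hxE haE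
    have e1 : x - x' - x = -x' := by abel
    have e2 : x - x' - a = -a' := by rw [he]; abel
    rw [e1, e2, C.hg.odd hx', C.hg.odd ha'] at h1
    rw [sub_eq_add_neg, sub_eq_add_neg]
    exact h1

/-- Constancy of the sum on all of `Ew w`. -/
lemma K_const (C : Ctx g η) {w : X} (hw2 : ‖w‖ < 2) {s t : X} (hs : s ∈ Ew w) (ht : t ∈ Ew w) :
    g s + g (w - s) = g t + g (w - t) := by
  by_cases hw : w = 0
  · subst hw
    have hs1 : ‖s‖ = 1 := hs.1
    have ht1 : ‖t‖ = 1 := ht.1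
    rw [zero_sub, zero_sub, C.hg.odd hs1, C.hg.odd ht1]
    simp
  · have hcs := connectedSpace_Ew C.hdim hw hw2
    have hloc : IsLocallyConstant (fun z : Ew w => g z + g (w - z)) := by
      rw [IsLocallyConstant.iff_eventually_eq]
      intro z
      filter_upwards [Metric.ball_mem_nhds z C.hη0] with y hy
      have hy' : ‖(y : X) - z‖ ≤ η := by
        have : dist y z < η := hy
        rw [Subtype.dist_eq, dist_eq_norm] at this
        exact this.le
      have hch := chord C y.2.1 z.2.1 (Ew_rho z.2).1 (Ew_rho y.2).1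
        (by abel : (y : X) - z = (w - z) - (w - y)) hy'
      calc g y + g (w - y) = (g y - g z) + g (w - y) + g z := by abel
        _ = (g (w - z) - g (w - y)) + g (w - y) + g z := by rw [hch]
        _ = g z + g (w - z) := by abel
    exact hloc.apply_eq_of_preconnectedSpace ⟨s, hs⟩ ⟨t, ht⟩

open Classical in
/-- The difference map. -/
noncomputable def G (g : X → Y) (w : X) : Y :=
  if h : (Ew w).Nonempty then g h.some + g (w - h.some) else 0

lemma G_eq (C : Ctx g η) {w x : X} (hw2 : ‖w‖ < 2) (hx : x ∈ Ew w) : G g w = g x + g (w - x) := by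
  have hne : (Ew w).Nonempty := ⟨x, hx⟩
  rw [G, dif_pos hne]
  exact K_const C hw2 hne.some_mem hx

lemma G_zero (C : Ctx g η) : G g (0 : X) = 0 := by
  obtain ⟨x, hx⟩ := Ew_nonempty C.hdim (w := (0 : X)) (by simp)
  rw [G_eq C (by simp) hx, zero_sub, C.hg.odd hx.1]
  simp

lemma G_neg (C : Ctx g η) {w : X} (hw2 : ‖w‖ < 2) : G g (-w) = -G g w := by
  obtain ⟨x, hx⟩ := Ew_nonempty C.hdim hw2
  have hx' : -x ∈ Ew (-w) := by
    refine ⟨by rw [norm_neg]; exact hx.1, ?_⟩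
    have e : -x - -w = -(x - w) := by abel
    rw [e, norm_neg]
    exact hx.2
  rw [G_eq C (by rwa [norm_neg]) hx', G_eq C hw2 hx]
  have e : -w - -x = -(w - x) := by abel
  rw [e, C.hg.odd hx.1, C.hg.odd (Ew_rho hx).1]
  abel

lemma G_norm (C : Ctx g η) {w : X} (hw2 : ‖w‖ < 2) : ‖G g w‖ = ‖w‖ := by
  obtain ⟨x, hx⟩ := Ew_nonempty C.hdim hw2
  rw [G_eq C hw2 hx]
  have e : w - x = -(x - w) := by abel
  rw [e, C.hg.odd hx.2, ← sub_eq_add_neg, C.hg.dist_eq _ _ hx.1 hx.2]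
  have e2 : x - (x - w) = w := by abel
  rw [e2]

/-- The unit distance lemma. -/
lemma T_lemma (C : Ctx g η) {u v : X} (hu : u ≠ 0) (huη : ‖u‖ ≤ η) {ψ : X →L[ℝ] ℝ}
    (hψ : ∀ x, ψ x ≤ ‖x‖) {q : X} (hq : ‖q‖ ≤ 1) (hψq : ψ q = 1) (hψu : ψ u = 0) (hv : ‖v‖ = 1)
    (hψv : ψ v ≤ -(1 - η / 2)) : ∃ a ∈ Ew u, ‖a - v‖ = 1 := by
  have hη1 := C.hη1
  have hu2 : ‖u‖ < 2 := by linarith
  have hψ0 : ψ ≠ 0 := by
    rintro rfl
    simp at hψq
  obtain ⟨a1, ha1, hmax⟩ := exists_max hu2 ψ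
  have ha1E := max_mem_Ew hu hψu hψ0 ha1 hmax
  obtain ⟨P, hP, hPv⟩ := lens_test_point hu2.le hψu hq hψq
  have hval : 1 - η / 2 ≤ ψ a1 := by
    have := hmax P hP
    linarith
  have h1 : 1 ≤ ‖a1 - v‖ := by
    have := hψ (a1 - v)
    rw [map_sub] at this
    linarith
  have hψ' : ∀ x, (-ψ) x ≤ ‖x‖ := fun x => by
    have := hψ (-x)
    simpa using this
  have ha2 := Ew_rho ha1E
  have h2 : ‖(u - a1) - v‖ ≤ 1 / 2 := by
    refine near_of_uc C.hη hψ' ha2.1.le hv.le ?_ ?_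
    · show 1 - η / 2 ≤ -ψ (u - a1)
      rw [map_sub, hψu]
      linarith
    · show 1 - η / 2 ≤ -ψ v
      linarith
  have hcs := connectedSpace_Ew C.hdim hu hu2
  have hconn : IsPreconnected (Ew u) := (isConnected_iff_connectedSpace.2 hcs).isPreconnected
  have hIVT := hconn.intermediate_value ha2 ha1E (f := fun a => ‖a - v‖) (by fun_prop)
  obtain ⟨a, ha, hav⟩ := hIVT (show (1 : ℝ) ∈ Icc _ _ from ⟨by
    show ‖(u - a1) - v‖ ≤ 1
    linarith, h1⟩)
  exact ⟨a, ha, hav⟩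

lemma G_shift (C : Ctx g η) {u y z : X} (hu2 : ‖u‖ < 2) (hy : ‖y‖ = 1) (huy : ‖u + y‖ < 2)
    (hz : z ∈ Ew u) (hzy : ‖z + y‖ = 1) : G g (u + y) = G g u + g y := by
  have hx : u - z ∈ Ew (u + y) := by
    refine ⟨(Ew_rho hz).1, ?_⟩
    have e : u - z - (u + y) = -(z + y) := by abel
    rw [e, norm_neg]
    exact hzy
  rw [G_eq C huy hx, G_eq C hu2 hz]
  have e : u + y - (u - z) = z + y := by abel
  rw [e, SphereIso.add_eq C.hg hz.1 hy hzy]
  abel

/-- A nonzero functional vanishing at two given vectors. -/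
lemma exists_functional (hdim : 3 ≤ Module.finrank ℝ X) (a b : X) :
    ∃ φ : X →L[ℝ] ℝ, φ ≠ 0 ∧ φ a = 0 ∧ φ b = 0 := by
  let l : Module.Dual ℝ X →ₗ[ℝ] (ℝ × ℝ) :=
    (LinearMap.applyₗ a).prod (LinearMap.applyₗ b)
  have hlt : Module.finrank ℝ (ℝ × ℝ) < Module.finrank ℝ (Module.Dual ℝ X) := by
    rw [Module.finrank_prod, Subspace.dual_finrank_eq]
    simp
    omega
  have hker := LinearMap.ker_ne_bot_of_finrank_lt hlt (f := l)
  obtain ⟨v, hv, hv0⟩ := Submodule.exists_mem_ne_zero_of_ne_bot hker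
  have h1 : l v = 0 := hv
  refine ⟨LinearMap.toContinuousLinearMap v, ?_, ?_, ?_⟩
  · intro h0
    apply hv0
    ext x
    have := congrArg (fun f : X →L[ℝ] ℝ => f x) h0
    simpa using this
  · exact congrArg Prod.fst h1
  · exact congrArg Prod.snd h1

/-- Additivity for small nonzero vectors. -/
lemma G_add_aux (C : Ctx g η) {u1 u2 : X} (h1 : u1 ≠ 0) (h2 : u2 ≠ 0) (h12 : u1 + u2 ≠ 0)
    (n1 : ‖u1‖ ≤ η) (n2 : ‖u2‖ ≤ η) (n12 : ‖u1 + u2‖ ≤ η) :
    G g (u1 + u2) = G g u1 + G g u2 := by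
  have hη1 := C.hη1
  obtain ⟨φ, hφ, hφ1, hφ2⟩ := exists_functional (X := X) (by have := C.hdim; omega) u1 u2
  obtain ⟨c, hc, hψ, q, hq, hq'⟩ := exists_normalised hφ
  set ψ : X →L[ℝ] ℝ := c • φ with hψdef
  have hψapp : ∀ x, ψ x = c * φ x := fun x => rfl
  have hψ1 : ψ u1 = 0 := by rw [hψapp, hφ1, mul_zero]
  have hψ2 : ψ u2 = 0 := by rw [hψapp, hφ2, mul_zero]
  have hψ12 : ψ (u1 + u2) = 0 := by rw [map_add, hψ1, hψ2, add_zero]
  have hψb : ∀ x, ψ x ≤ ‖x‖ := hψ
  have hψq : ψ q = 1 := hq'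
  have hψ0 : ψ ≠ 0 := by
    intro h0
    rw [h0] at hψq
    simp at hψq
  have hu22 : ‖u2‖ < 2 := by linarith
  obtain ⟨y, hyL, hmax⟩ := exists_max hu22 ψ
  have hyE := max_mem_Ew h2 hψ2 hψ0 hyL hmax
  obtain ⟨P, hP, hPv⟩ := lens_test_point hu22.le hψ2 hq hψq
  have hval : 1 - η / 2 ≤ ψ y := by
    have := hmax P hP
    linarith
  have hy'E := Ew_rho hyE
  -- first application
  obtain ⟨z, hz, hzy⟩ := T_lemma C h1 n1 hψb hq hψq hψ1 (v := -y)
    (by rw [norm_neg]; exact hyE.1) (by rw [map_neg]; linarith)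
  have hzy' : ‖z + y‖ = 1 := by
    rw [sub_neg_eq_add] at hzy
    exact hzy
  have huy : ‖u1 + y‖ < 2 := by
    have := norm_add_le u1 y
    rw [hyE.1] at this
    linarith
  have e1 := G_shift C (u := u1) (y := y) (z := z) (by linarith) hyE.1 huy hz hzy'
  -- second application
  obtain ⟨z', hz', hz'y⟩ := T_lemma C h12 n12 hψb hq hψq hψ12 (v := u2 - y) hy'E.1
    (by rw [map_sub, hψ2]; linarith)
  have hz'y' : ‖z' + -(u2 - y)‖ = 1 := by
    rw [← sub_eq_add_neg]
    exact hz'y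
  have e3 : u1 + u2 + -(u2 - y) = u1 + y := by abel
  have e2 := G_shift C (u := u1 + u2) (y := -(u2 - y)) (z := z') (by linarith)
    (by rw [norm_neg]; exact hy'E.1) (by rw [e3]; exact huy) hz' hz'y'
  rw [e3, C.hg.odd hy'E.1] at e2
  rw [G_eq C hu22 hyE]
  have e4 : G g (u1 + u2) = G g (u1 + y) + g (u2 - y) := by
    rw [e2]; abel
  rw [e4, e1]
  abel

lemma G_add (C : Ctx g η) {u1 u2 : X} (n1 : ‖u1‖ ≤ η) (n2 : ‖u2‖ ≤ η) (n12 : ‖u1 + u2‖ ≤ η) :
    G g (u1 + u2) = G g u1 + G g u2 := by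
  have hη1 := C.hη1
  by_cases h1 : u1 = 0
  · rw [h1, zero_add, G_zero C, zero_add]
  by_cases h2 : u2 = 0
  · rw [h2, add_zero, G_zero C, add_zero]
  by_cases h12 : u1 + u2 = 0
  · have e : u2 = -u1 := by
      rw [eq_neg_iff_add_eq_zero, add_comm]
      exact h12
    rw [h12, G_zero C, e, G_neg C (by linarith), add_neg_cancel]
  exact G_add_aux C h1 h2 h12 n1 n2 n12

/-- Homogeneity on small vectors. -/
lemma G_smul (C : Ctx g η) {a : X} (ha : ‖a‖ ≤ η) {t : ℝ} (ht0 : 0 ≤ t) (ht1 : t ≤ 1) :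
    G g (t • a) = t • G g a := by
  have hη1 := C.hη1
  by_cases ha0 : a = 0
  · rw [ha0, smul_zero, G_zero C, smul_zero]
  have hn : 0 < ‖a‖ := norm_pos_iff.2 ha0
  have hnt : ‖t • a‖ = t * ‖a‖ := by rw [norm_smul, Real.norm_of_nonneg ht0]
  have hnt' : ‖(1 - t) • a‖ = (1 - t) * ‖a‖ := by
    rw [norm_smul, Real.norm_of_nonneg (by linarith)]
  have h1 : t * ‖a‖ ≤ η := by nlinarith
  have h2 : (1 - t) * ‖a‖ ≤ η := by nlinarith
  have hsum : t • a + (1 - t) • a = a := by module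
  have hadd := G_add C (u1 := t • a) (u2 := (1 - t) • a) (by rw [hnt]; exact h1)
    (by rw [hnt']; exact h2) (by rw [hsum]; exact ha)
  rw [hsum] at hadd
  set A := G g (t • a) with hA
  set B := G g ((1 - t) • a) with hB
  have hnA : ‖A‖ = t * ‖a‖ := by rw [hA, G_norm C (by rw [hnt]; linarith), hnt]
  have hnB : ‖B‖ = (1 - t) * ‖a‖ := by rw [hB, G_norm C (by rw [hnt']; linarith), hnt']
  have hnG : ‖A + B‖ = ‖a‖ := by rw [← hadd, G_norm C (by linarith)]
  have hray : SameRay ℝ A B := by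
    rw [sameRay_iff_norm_add, hnG, hnA, hnB]
    ring
  have hs := hray.norm_smul_eq
  rw [hnA, hnB] at hs
  have hs2 : t • B = (1 - t) • A := by
    have h3 : ‖a‖ • (t • B) = ‖a‖ • ((1 - t) • A) := by
      rw [smul_smul, smul_smul, mul_comm ‖a‖ t, mul_comm ‖a‖ (1 - t)]
      exact hs
    exact smul_right_injective Y hn.ne' h3
  rw [hadd, smul_add, hs2]
  module

/-- Comparison of two scales. -/
lemma G_scale (C : Ctx g η) {x : X} {s s' : ℝ} (hs : 0 < s) (hss' : s ≤ s')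
    (hs' : s' * ‖x‖ ≤ η) : s⁻¹ • G g (s • x) = s'⁻¹ • G g (s' • x) := by
  have hs'0 : 0 < s' := lt_of_lt_of_le hs hss'
  have h1 : ‖s' • x‖ ≤ η := by
    rw [norm_smul, Real.norm_of_nonneg hs'0.le]
    exact hs'
  have e : s • x = (s / s') • (s' • x) := by
    rw [smul_smul, div_mul_cancel₀ _ hs'0.ne']
  rw [e, G_smul C h1 (by positivity) ((div_le_one hs'0).2 hss'), smul_smul]
  congr 1
  field_simp

/-- The linear extension. -/
noncomputable def TT (g : X → Y) (η : ℝ) (x : X) : Y :=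
  (η / (‖x‖ + 1))⁻¹ • G g ((η / (‖x‖ + 1)) • x)

lemma TT_eq (C : Ctx g η) {x : X} {s : ℝ} (hs : 0 < s) (hsx : s * ‖x‖ ≤ η) :
    TT g η x = s⁻¹ • G g (s • x) := by
  have hη0 := C.hη0
  have hc0 : 0 < η / (‖x‖ + 1) := by positivity
  have hcx : η / (‖x‖ + 1) * ‖x‖ ≤ η := by
    rw [div_mul_eq_mul_div, div_le_iff₀ (by positivity)]
    nlinarith [norm_nonneg x]
  rcases le_total s (η / (‖x‖ + 1)) with h | h
  · rw [TT, G_scale C hs h hcx]
  · rw [TT, G_scale C hc0 h hsx]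

lemma TT_add (C : Ctx g η) (x x' : X) : TT g η (x + x') = TT g η x + TT g η x' := by
  have hη0 := C.hη0
  set D : ℝ := ‖x‖ + ‖x'‖ + ‖x + x'‖ + 1 with hD
  have hD0 : 0 < D := by positivity
  set s : ℝ := η / D with hs
  have hs0 : 0 < s := by positivity
  have hsD : s * D = η := by rw [hs]; field_simp
  have h1 : s * ‖x‖ ≤ η := by
    rw [← hsD]
    apply mul_le_mul_of_nonneg_left _ hs0.le
    rw [hD]
    linarith [norm_nonneg x', norm_nonneg (x + x')]
  have h2 : s * ‖x'‖ ≤ η := by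
    rw [← hsD]
    apply mul_le_mul_of_nonneg_left _ hs0.le
    rw [hD]
    linarith [norm_nonneg x, norm_nonneg (x + x')]
  have h3 : s * ‖x + x'‖ ≤ η := by
    rw [← hsD]
    apply mul_le_mul_of_nonneg_left _ hs0.le
    rw [hD]
    linarith [norm_nonneg x, norm_nonneg x']
  rw [TT_eq C hs0 h1, TT_eq C hs0 h2, TT_eq C hs0 h3, smul_add s x x', G_add C, smul_add]
  · rw [norm_smul, Real.norm_of_nonneg hs0.le]; exact h1
  · rw [norm_smul, Real.norm_of_nonneg hs0.le]; exact h2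
  · rw [← smul_add, norm_smul, Real.norm_of_nonneg hs0.le]; exact h3

lemma TT_norm (C : Ctx g η) (x : X) : ‖TT g η x‖ = ‖x‖ := by
  have hη0 := C.hη0
  have hη1 := C.hη1
  have hc0 : 0 < η / (‖x‖ + 1) := by positivity
  have hcx : η / (‖x‖ + 1) * ‖x‖ ≤ η := by
    rw [div_mul_eq_mul_div, div_le_iff₀ (by positivity)]
    nlinarith [norm_nonneg x]
  rw [TT, norm_smul, G_norm C, norm_inv, norm_smul, Real.norm_of_nonneg hc0.le, ← mul_assoc,
    inv_mul_cancel₀ hc0.ne', one_mul]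
  rw [norm_smul, Real.norm_of_nonneg hc0.le]
  linarith

lemma TT_small (C : Ctx g η) {u : X} (hu : ‖u‖ ≤ η) : TT g η u = G g u := by
  rw [TT_eq C one_pos (by simp [hu])]
  simp

/-- The additive map. -/
noncomputable def TTh (C : Ctx g η) : X →+ Y := AddMonoidHom.mk' (TT g η) (TT_add C)

lemma TTh_apply (C : Ctx g η) (x : X) : TTh C x = TT g η x := rfl

lemma TT_sphere (C : Ctx g η) {x : X} (hx : ‖x‖ = 1) : TT g η x = g x := by
  have hrank : 1 < Module.rank ℝ X := by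
    rw [← Module.finrank_eq_rank]
    have := C.hdim
    exact_mod_cast (by omega : 1 < Module.finrank ℝ X)
  have hconn : IsConnected (sphere (0 : X) 1) := isConnected_sphere hrank 0 zero_le_one
  have hcs : ConnectedSpace (sphere (0 : X) 1) := isConnected_iff_connectedSpace.1 hconn
  have hn1 : ∀ z : sphere (0 : X) 1, ‖(z : X)‖ = 1 := fun z => by simpa using z.2
  have hloc : IsLocallyConstant (fun z : sphere (0 : X) 1 => g z - TTh C z) := by
    rw [IsLocallyConstant.iff_eventually_eq]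
    intro z
    filter_upwards [Metric.ball_mem_nhds z C.hη0] with y hy
    have hy' : ‖(y : X) - z‖ ≤ η := by
      have : dist y z < η := hy
      rw [Subtype.dist_eq, dist_eq_norm] at this
      exact this.le
    have hη1 := C.hη1
    have hw2 : ‖(y : X) - z‖ < 2 := by linarith
    have hxE : (y : X) ∈ Ew ((y : X) - z) := by
      refine ⟨hn1 y, ?_⟩
      have e : (y : X) - ((y : X) - z) = z := by abel
      rw [e]; exact hn1 z
    have h1 := G_eq C hw2 hxE
    have e1 : (y : X) - z - y = -(z : X) := by abel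
    rw [e1, C.hg.odd (hn1 z), ← sub_eq_add_neg, ← TT_small C hy', ← TTh_apply C, map_sub] at h1
    have h2 : g (y : X) - TTh C (y : X) = g (z : X) - TTh C (z : X) := by
      rw [sub_eq_sub_iff_sub_eq_sub, ← h1]
    exact h2
  set x' : sphere (0 : X) 1 := ⟨x, by simpa using hx⟩ with hx'
  have h1 := hloc.apply_eq_of_preconnectedSpace x' (-x')
  have h2 : g (x : X) - TTh C x = g (-x) - TTh C (-x) := h1
  rw [C.hg.odd hx, map_neg] at h2
  have h3 : g x - TTh C x = 0 := by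
    have h4 : -g x - -TTh C x = -(g x - TTh C x) := by abel
    rw [h4] at h2
    have h5 : (2 : ℝ) • (g x - TTh C x) = 0 := by
      rw [two_smul]
      nth_rewrite 1 [h2]
      abel
    rcases smul_eq_zero.1 h5 with h6 | h6
    · norm_num at h6
    · exact h6
  rw [← TTh_apply C]
  exact (sub_eq_zero.1 h3).symm

/-- The final statement for ambient maps. -/
theorem exists_linearIsometryEquiv (C : Ctx g η) :
    ∃ T : X ≃ₗᵢ[ℝ] Y, ∀ x, ‖x‖ = 1 → T x = g x := by
  have hnorm : ∀ x, ‖TTh C x‖ = ‖x‖ := TT_norm C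
  have hiso : Isometry (TTh C) := AddMonoidHomClass.isometry_of_norm _ hnorm
  set L : X →L[ℝ] Y := (TTh C).toRealLinearMap hiso.continuous with hL
  have hLapp : ∀ x, L x = TT g η x := fun x => rfl
  have hsurj : Function.Surjective L := by
    intro y
    by_cases hy : y = 0
    · exact ⟨0, by rw [hy, map_zero]⟩
    · have hn : 0 < ‖y‖ := norm_pos_iff.2 hy
      have h1 : ‖‖y‖⁻¹ • y‖ = 1 := by
        simpa using norm_smul_inv_norm (𝕜 := ℝ) hy
      obtain ⟨a, ha, hga⟩ := C.hg.surj _ h1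
      refine ⟨‖y‖ • a, ?_⟩
      rw [map_smul, hLapp, TT_sphere C ha, hga, smul_smul, mul_inv_cancel₀ hn.ne', one_smul]
  let Li : X →ₗᵢ[ℝ] Y := ⟨L.toLinearMap, fun x => hnorm x⟩
  refine ⟨LinearIsometryEquiv.ofSurjective Li hsurj, fun x hx => ?_⟩
  show L x = g x
  rw [hLapp, TT_sphere C hx]

end Vale.Agent.Lib.P084.Dim4
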