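import Vale.Agent.Lib.P084.Main
import Vale.Agent.Lib.P084.Dim4.Final

/-! The extension theorem for uniformly convex spaces of dimension at least four, possibly of
infinite dimension. -/

set_option linter.unusedSectionVars false

namespace Vale.Agent.Lib.P084.Dim4

open Metric Set Filter Topology

variable {X Y : Type*} [NormedAddCommGroup X] [NormedSpace ℝ X]
  [NormedAddCommGroup Y] [NormedSpace ℝ Y]

/-- Additivity on unit triples for a uniformly convex target. -/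
theorem SphereIso.add_eq_unif [UniformConvexSpace Y] {g : X → Y}
    (hg : SphereIso g) {x z : X} (hx : ‖x‖ = 1) (hz : ‖z‖ = 1) (hxz : ‖x + z‖ = 1) :
    g (x + z) = g x + g z := by
  set y : X := x + z with hy
  set y' : Y := g y with hy'
  have hy'1 : ‖y'‖ = 1 := hg.norm_one y hxz
  set D : X → ℝ := fun a => ‖g (y - a) - (y' - g a)‖ with hD
  have hxE : x ∈ Ew y := by
    refine ⟨hx, ?_⟩
    have : x - y = -z := by rw [hy]; abel
    rw [this, norm_neg]; exact hz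
  have hτ : ∀ a ∈ Ew y, ∃ a' ∈ Ew y, g a' = y' - g a := by
    intro a ha
    have h1 : ‖y' - g a‖ = 1 := by
      rw [hy', hg.dist_eq y a hxz ha.1, norm_sub_rev]; exact ha.2
    obtain ⟨a', ha', hga'⟩ := hg.surj _ h1
    refine ⟨a', ⟨ha', ?_⟩, hga'⟩
    rw [← hg.dist_eq a' y ha' hxz, hga']
    have : y' - g a - g y = - g a := by rw [hy']; abel
    rw [this, norm_neg]
    exact hg.norm_one a ha.1
  have hDρ : ∀ a, a ∈ Ew y → D (y - a) = D a := by
    intro a _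
    simp only [hD]
    have e1 : y - (y - a) = a := by abel
    rw [e1]
    have e2 : g a - (y' - g (y - a)) = g (y - a) - (y' - g a) := by abel
    rw [e2]
  have hDτ : ∀ a ∈ Ew y, ∀ a' ∈ Ew y, g a' = y' - g a → D a' = D a := by
    intro a ha a' ha' hga'
    simp only [hD]
    have e1 : y' - g a' = g a := by rw [hga']; abel
    rw [e1, hg.dist_eq _ _ (Ew_rho ha').1 ha.1, ← hga', hg.dist_eq _ _ (Ew_rho ha).1 ha'.1]
    have e2 : y - a' - a = y - a - a' := by abel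
    rw [e2]
  by_contra hne
  have hDx : D x ≠ 0 := by
    intro h0
    apply hne
    have h1 : g (y - x) - (y' - g x) = 0 := norm_eq_zero.1 h0
    have h2 : y - x = z := by rw [hy]; abel
    rw [h2] at h1
    have h3 : g y = g x + g z := by
      have := sub_eq_zero.1 h1
      rw [this, hy']; abel
    exact h3
  set ε : ℝ := D x with hε
  have hε0 : 0 < ε := lt_of_le_of_ne (norm_nonneg _) (Ne.symm hDx)
  set M : Set X := {a | a ∈ Ew y ∧ ε ≤ D a} with hM
  have hxM : x ∈ M := ⟨hxE, le_refl _⟩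
  set φ : X → ℝ := fun a => ‖a - (1 / 2 : ℝ) • y‖ with hφ
  have hbdd : BddAbove (φ '' M) := by
    refine ⟨1 + 1 / 2, ?_⟩
    rintro _ ⟨a, ha, rfl⟩
    have h1 := norm_sub_le a ((1 / 2 : ℝ) • y)
    have h2 : ‖(1 / 2 : ℝ) • y‖ = 1 / 2 := by
      rw [norm_smul, hxz]; norm_num
    have h3 : ‖a‖ = 1 := ha.1.1
    simp only [hφ]
    linarith
  set r : ℝ := sSup (φ '' M) with hr
  have hrmax : ∀ a ∈ M, ‖a - (1 / 2 : ℝ) • y‖ ≤ r := fun a ha =>
    le_csSup hbdd (mem_image_of_mem φ ha)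
  have hclose : ∀ a ∈ M, ‖g a - (1 / 2 : ℝ) • y'‖ ≤ r := by
    intro a ha
    obtain ⟨a', ha', hga'⟩ := hτ a ha.1
    have ha'M : a' ∈ M := ⟨ha', by rw [hDτ a ha.1 a' ha' hga']; exact ha.2⟩
    have h1 : ‖g a - g a'‖ ≤ 2 * r := by
      rw [hg.dist_eq a a' ha.1.1 ha'.1]
      have : a - a' = (a - (1 / 2 : ℝ) • y) - (a' - (1 / 2 : ℝ) • y) := by abel
      rw [this]
      have h2 := norm_sub_le (a - (1 / 2 : ℝ) • y) (a' - (1 / 2 : ℝ) • y)
      have h3 := hrmax a ha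
      have h4 := hrmax a' ha'M
      linarith
    rw [hga'] at h1
    have e : g a - (y' - g a) = (2 : ℝ) • (g a - (1 / 2 : ℝ) • y') := by
      module
    rw [e, norm_smul] at h1
    norm_num at h1
    linarith
  obtain ⟨δ, hδ, hUC⟩ := exists_forall_closed_ball_dist_add_le_two_mul_sub Y hε0 r
  obtain ⟨_, ⟨x₁, hx₁, rfl⟩, hlt⟩ := exists_lt_of_lt_csSup ⟨_, mem_image_of_mem φ hxM⟩
    (show r - δ / 2 < r by linarith)
  have hx₂M : y - x₁ ∈ M := ⟨Ew_rho hx₁.1, by rw [hDρ x₁ hx₁.1]; exact hx₁.2⟩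
  have hu := hclose x₁ hx₁
  have hv : ‖-(g (y - x₁) - (1 / 2 : ℝ) • y')‖ ≤ r := by
    rw [norm_neg]
    exact hclose _ hx₂M
  have huv : ε ≤ ‖(g x₁ - (1 / 2 : ℝ) • y') - -(g (y - x₁) - (1 / 2 : ℝ) • y')‖ := by
    have h1 : (g x₁ - (1 / 2 : ℝ) • y') - -(g (y - x₁) - (1 / 2 : ℝ) • y') =
        g (y - x₁) - (y' - g x₁) := by module
    rw [h1]
    exact hx₁.2
  have h5 := hUC hu hv huv
  have h6 : (g x₁ - (1 / 2 : ℝ) • y') + -(g (y - x₁) - (1 / 2 : ℝ) • y') = g x₁ - g (y - x₁) := by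
    abel
  rw [h6, hg.dist_eq _ _ hx₁.1.1 (Ew_rho hx₁.1).1] at h5
  have h7 : x₁ - (y - x₁) = (2 : ℝ) • (x₁ - (1 / 2 : ℝ) • y) := by module
  rw [h7, norm_smul] at h5
  norm_num at h5
  simp only [hφ] at hlt
  linarith

/-- The uniform convexity constant for a uniformly convex space. -/
lemma exists_uc_of_uniform [UniformConvexSpace X] :
    ∃ η > 0, η ≤ 1 / 2 ∧ ∀ a b : X, ‖a‖ ≤ 1 → ‖b‖ ≤ 1 → 2 - η ≤ ‖a + b‖ → ‖a - b‖ ≤ 1 / 2 := by
  obtain ⟨δ, hδ, h⟩ := exists_forall_closed_ball_dist_add_le_two_sub X (show (0 : ℝ) < 1 / 2 by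
    norm_num)
  refine ⟨min (δ / 2) (1 / 2), lt_min (by linarith) (by norm_num), min_le_right _ _,
    fun a b ha hb hab => ?_⟩
  by_contra hcon
  have h1 := h ha hb (not_le.1 hcon).le
  have h2 := min_le_left (δ / 2) (1 / 2)
  linarith

/-- A finite dimensional subspace of dimension at least four containing given vectors. -/
lemma exists_sub (hrank : (4 : Cardinal) ≤ Module.rank ℝ X) (S : Finset X) :
    ∃ F : Submodule ℝ X, FiniteDimensional ℝ F ∧ 4 ≤ Module.finrank ℝ F ∧ ∀ v ∈ S, v ∈ F := by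
  classical
  obtain ⟨s, hs, hli⟩ := exists_finset_linearIndependent_of_le_rank (R := ℝ) (M := X) (n := 4)
    (by exact_mod_cast hrank)
  refine ⟨Submodule.span ℝ ((s ∪ S : Finset X) : Set X), inferInstance, ?_, ?_⟩
  · have h1 : Module.finrank ℝ (Submodule.span ℝ (s : Set X)) = 4 := by
      rw [finrank_span_finset_eq_card hli, hs]
    rw [← h1]
    apply Submodule.finrank_mono
    apply Submodule.span_mono
    intro v hv
    simp only [Finset.mem_coe, Finset.mem_union] at hv ⊢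
    exact Or.inl hv
  · intro v hv
    apply Submodule.subset_span
    simp only [Finset.mem_coe, Finset.mem_union]
    exact Or.inr hv

/-- The standing assumptions, for a possibly infinite dimensional source. -/
structure CtxU (g : X → Y) (η : ℝ) : Prop where
  hg : SphereIso g
  hadd : ∀ x z : X, ‖x‖ = 1 → ‖z‖ = 1 → ‖x + z‖ = 1 → g (x + z) = g x + g z
  hrank : (4 : Cardinal) ≤ Module.rank ℝ X
  hη0 : 0 < η
  hη1 : η ≤ 1 / 2
  hη : ∀ a b : X, ‖a‖ ≤ 1 → ‖b‖ ≤ 1 → 2 - η ≤ ‖a + b‖ → ‖a - b‖ ≤ 1 / 2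

variable [StrictConvexSpace ℝ X] [StrictConvexSpace ℝ Y] {g : X → Y} {η : ℝ}

lemma rel_unitU (C : CtxU g η) {w s t : X} (hs : s ∈ Ew w) (ht : t ∈ Ew w)
    (hst : ‖s - t‖ = 1) : g s + g (w - s) = g t + g (w - t) := by
  have e1 : t + (s - t) = s := by abel
  have e2 : w - s + (s - t) = w - t := by abel
  have h1 := C.hadd _ _ ht.1 hst (by rw [e1]; exact hs.1)
  have h2 := C.hadd _ _ (Ew_rho hs).1 hst (by rw [e2]; exact (Ew_rho ht).1)
  rw [e1] at h1
  rw [e2] at h2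
  rw [h1, h2]
  abel

lemma K_const_smallU (C : CtxU g η) {w : X} (hw : w ≠ 0) (hwη : ‖w‖ ≤ η) {s t : X} (hs : s ∈ Ew w)
    (ht : t ∈ Ew w) : g s + g (w - s) = g t + g (w - t) := by
  classical
  by_contra hne
  obtain ⟨l, -, hl⟩ := exists_dual_vector'' ℝ (g s + g (w - s) - (g t + g (w - t)))
  obtain ⟨F, hFd, hF4, hFS⟩ := exists_sub C.hrank {w, s, t}
  have hwF : w ∈ F := hFS w (by simp)
  have hsF : s ∈ F := hFS s (by simp)
  have htF : t ∈ F := hFS t (by simp)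
  have hgc := SphereIso.continuousOn C.hg
  have hcont : ContinuousOn (fun x => l (g x + g (w - x))) (Ew w) :=
    l.continuous.comp_continuousOn ((hgc.mono fun a ha => ha.1).add
      (hgc.comp (continuous_const.sub continuous_id).continuousOn fun a ha => (Ew_rho ha).1))
  have hηF : ∀ a b : F, ‖a‖ ≤ 1 → ‖b‖ ≤ 1 → 2 - η ≤ ‖a + b‖ → ‖a - b‖ ≤ 1 / 2 :=
    fun a b ha hb h => C.hη a b ha hb h
  have hcont' : ContinuousOn (fun x : F => l (g (x : X) + g (w - (x : X))))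
      (Ew (⟨w, hwF⟩ : F)) :=
    hcont.comp continuous_subtype_val.continuousOn fun x hx => hx
  have heq := even_rel_const_of_small hF4 C.hη1 hηF (w := (⟨w, hwF⟩ : F))
    (fun h0 => hw (congrArg Subtype.val h0)) hwη hcont'
    (fun x _ => by
      show l (g (w - x) + g (w - (w - x))) = l (g x + g (w - x))
      rw [sub_sub_cancel, add_comm])
    (fun a ha b hb hab => by
      show l (g a + g (w - a)) = l (g b + g (w - b))
      rw [rel_unitU C (w := w) (s := a) (t := b) ha hb hab])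
    (⟨s, hsF⟩ : F) hs (⟨t, htF⟩ : F) ht
  have heq' : l (g s + g (w - s)) = l (g t + g (w - t)) := heq
  rw [map_sub, heq', sub_self] at hl
  have h0 : ‖g s + g (w - s) - (g t + g (w - t))‖ = 0 := by
    have : ((‖g s + g (w - s) - (g t + g (w - t))‖ : ℝ) : ℝ) = 0 := by
      simpa using hl.symm
    exact this
  exact hne (sub_eq_zero.1 (norm_eq_zero.1 h0))

/-- The chord lemma. -/
lemma chordU (C : CtxU g η) {x x' a a' : X} (hx : ‖x‖ = 1) (hx' : ‖x'‖ = 1) (ha : ‖a‖ = 1)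
    (ha' : ‖a'‖ = 1) (he : x - x' = a - a') (hsmall : ‖x - x'‖ ≤ η) :
    g x - g x' = g a - g a' := by
  by_cases h0 : x - x' = 0
  · have h1 : x = x' := sub_eq_zero.1 h0
    have h2 : a = a' := sub_eq_zero.1 (by rw [← he]; exact h0)
    rw [h1, h2, sub_self, sub_self]
  · have hxE : x ∈ Ew (x - x') := by
      refine ⟨hx, ?_⟩
      have e : x - (x - x') = x' := by abel
      rw [e]; exact hx'
    have haE : a ∈ Ew (x - x') := by
      refine ⟨ha, ?_⟩
      have e : a - (x - x') = a' := by rw [he]; abel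
      rw [e]; exact ha'
    have h1 := K_const_smallU C h0 hsmall hxE haE
    have e1 : x - x' - x = -x' := by abel
    have e2 : x - x' - a = -a' := by rw [he]; abel
    rw [e1, e2, C.hg.odd hx', C.hg.odd ha'] at h1
    rw [sub_eq_add_neg, sub_eq_add_neg]
    exact h1

/-- Constancy of the sum on all of `Ew w`. -/
lemma K_constU (C : CtxU g η) {w : X} (hw2 : ‖w‖ < 2) {s t : X} (hs : s ∈ Ew w) (ht : t ∈ Ew w) :
    g s + g (w - s) = g t + g (w - t) := by
  classical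
  by_cases hw : w = 0
  · subst hw
    have hs1 : ‖s‖ = 1 := hs.1
    have ht1 : ‖t‖ = 1 := ht.1
    rw [zero_sub, zero_sub, C.hg.odd hs1, C.hg.odd ht1]
    simp
  · obtain ⟨F, hFd, hF4, hFS⟩ := exists_sub C.hrank {w, s, t}
    have hwF : w ∈ F := hFS w (by simp)
    have hsF : s ∈ F := hFS s (by simp)
    have htF : t ∈ F := hFS t (by simp)
    have hw' : (⟨w, hwF⟩ : F) ≠ 0 := fun h0 => hw (congrArg Subtype.val h0)
    have hcs := connectedSpace_Ew hF4 hw' hw2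
    have hloc : IsLocallyConstant
        (fun z : Ew (⟨w, hwF⟩ : F) => g ((z : F) : X) + g (w - ((z : F) : X))) := by
      rw [IsLocallyConstant.iff_eventually_eq]
      intro z
      filter_upwards [Metric.ball_mem_nhds z C.hη0] with y hy
      have hy' : ‖((y : F) : X) - ((z : F) : X)‖ ≤ η := by
        have : dist y z < η := hy
        rw [Subtype.dist_eq, Subtype.dist_eq, dist_eq_norm] at this
        exact this.le
      have hyE : ((y : F) : X) ∈ Ew w := y.2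
      have hzE : ((z : F) : X) ∈ Ew w := z.2
      have hch := chordU C hyE.1 hzE.1 (Ew_rho hzE).1 (Ew_rho hyE).1
        (by abel : ((y : F) : X) - ((z : F) : X) = (w - ((z : F) : X)) - (w - ((y : F) : X))) hy'
      show g ((y : F) : X) + g (w - ((y : F) : X)) = g ((z : F) : X) + g (w - ((z : F) : X))
      calc g ((y : F) : X) + g (w - ((y : F) : X))
          = (g ((y : F) : X) - g ((z : F) : X)) + g (w - ((y : F) : X)) + g ((z : F) : X) := by abel
        _ = (g (w - ((z : F) : X)) - g (w - ((y : F) : X))) + g (w - ((y : F) : X))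
              + g ((z : F) : X) := by rw [hch]
        _ = g ((z : F) : X) + g (w - ((z : F) : X)) := by abel
    exact hloc.apply_eq_of_preconnectedSpace
      (⟨⟨s, hsF⟩, hs⟩ : Ew (⟨w, hwF⟩ : F)) (⟨⟨t, htF⟩, ht⟩ : Ew (⟨w, hwF⟩ : F))

lemma Ew_nonemptyU (hrank : (4 : Cardinal) ≤ Module.rank ℝ X) {w : X} (hw2 : ‖w‖ < 2) :
    (Ew w).Nonempty := by
  classical
  obtain ⟨F, hFd, hF4, hFS⟩ := exists_sub hrank {w}
  have hwF : w ∈ F := hFS w (by simp)
  obtain ⟨x, hx⟩ := Ew_nonempty hF4 (w := (⟨w, hwF⟩ : F)) hw2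
  exact ⟨x, hx⟩

lemma G_eqU (C : CtxU g η) {w x : X} (hw2 : ‖w‖ < 2) (hx : x ∈ Ew w) : G g w = g x + g (w - x) := by
  have hne : (Ew w).Nonempty := ⟨x, hx⟩
  rw [G, dif_pos hne]
  exact K_constU C hw2 hne.some_mem hx

lemma G_zeroU (C : CtxU g η) : G g (0 : X) = 0 := by
  obtain ⟨x, hx⟩ := Ew_nonemptyU C.hrank (w := (0 : X)) (by simp)
  rw [G_eqU C (by simp) hx, zero_sub, C.hg.odd hx.1]
  simp

lemma G_negU (C : CtxU g η) {w : X} (hw2 : ‖w‖ < 2) : G g (-w) = -G g w := by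
  obtain ⟨x, hx⟩ := Ew_nonemptyU C.hrank hw2
  have hx' : -x ∈ Ew (-w) := by
    refine ⟨by rw [norm_neg]; exact hx.1, ?_⟩
    have e : -x - -w = -(x - w) := by abel
    rw [e, norm_neg]
    exact hx.2
  rw [G_eqU C (by rwa [norm_neg]) hx', G_eqU C hw2 hx]
  have e : -w - -x = -(w - x) := by abel
  rw [e, C.hg.odd hx.1, C.hg.odd (Ew_rho hx).1]
  abel

lemma G_normU (C : CtxU g η) {w : X} (hw2 : ‖w‖ < 2) : ‖G g w‖ = ‖w‖ := by
  obtain ⟨x, hx⟩ := Ew_nonemptyU C.hrank hw2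
  rw [G_eqU C hw2 hx]
  have e : w - x = -(x - w) := by abel
  rw [e, C.hg.odd hx.2, ← sub_eq_add_neg, C.hg.dist_eq _ _ hx.1 hx.2]
  have e2 : x - (x - w) = w := by abel
  rw [e2]

lemma G_shiftU (C : CtxU g η) {u y z : X} (hu2 : ‖u‖ < 2) (hy : ‖y‖ = 1) (huy : ‖u + y‖ < 2)
    (hz : z ∈ Ew u) (hzy : ‖z + y‖ = 1) : G g (u + y) = G g u + g y := by
  have hx : u - z ∈ Ew (u + y) := by
    refine ⟨(Ew_rho hz).1, ?_⟩
    have e : u - z - (u + y) = -(z + y) := by abel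
    rw [e, norm_neg]
    exact hzy
  rw [G_eqU C huy hx, G_eqU C hu2 hz]
  have e : u + y - (u - z) = z + y := by abel
  rw [e, C.hadd _ _ hz.1 hy hzy]
  abel

section FD

variable {V : Type*} [NormedAddCommGroup V] [NormedSpace ℝ V] [FiniteDimensional ℝ V]
  [StrictConvexSpace ℝ V]

/-- The unit distance lemma in a finite dimensional space. -/
lemma T_lemmaF (hdim : 4 ≤ Module.finrank ℝ V) (hη1 : η ≤ 1 / 2)
    (hη : ∀ a b : V, ‖a‖ ≤ 1 → ‖b‖ ≤ 1 → 2 - η ≤ ‖a + b‖ → ‖a - b‖ ≤ 1 / 2)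
    {u v : V} (hu : u ≠ 0) (huη : ‖u‖ ≤ η) {ψ : V →L[ℝ] ℝ}
    (hψ : ∀ x, ψ x ≤ ‖x‖) {q : V} (hq : ‖q‖ ≤ 1) (hψq : ψ q = 1) (hψu : ψ u = 0) (hv : ‖v‖ = 1)
    (hψv : ψ v ≤ -(1 - η / 2)) : ∃ a ∈ Ew u, ‖a - v‖ = 1 := by
  have hu2 : ‖u‖ < 2 := by linarith
  have hψ0 : ψ ≠ 0 := by
    rintro rfl
    simp at hψq
  obtain ⟨a1, ha1, hmax⟩ := exists_max hu2 ψ
  have ha1E := max_mem_Ew hu hψu hψ0 ha1 hmax
  obtain ⟨P, hP, hPv⟩ := lens_test_point hu2.le hψu hq hψq
  have hval : 1 - η / 2 ≤ ψ a1 := by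
    have := hmax P hP
    linarith
  have h1 : 1 ≤ ‖a1 - v‖ := by
    have := hψ (a1 - v)
    rw [map_sub] at this
    linarith
  have hψ' : ∀ x, (-ψ) x ≤ ‖x‖ := fun x => by
    have := hψ (-x)
    simpa using this
  have ha2 := Ew_rho ha1E
  have h2 : ‖(u - a1) - v‖ ≤ 1 / 2 := by
    refine near_of_uc hη hψ' ha2.1.le hv.le ?_ ?_
    · show 1 - η / 2 ≤ -ψ (u - a1)
      rw [map_sub, hψu]
      linarith
    · show 1 - η / 2 ≤ -ψ v
      linarith
  have hcs := connectedSpace_Ew hdim hu hu2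
  have hconn : IsPreconnected (Ew u) := (isConnected_iff_connectedSpace.2 hcs).isPreconnected
  have hIVT := hconn.intermediate_value ha2 ha1E (f := fun a => ‖a - v‖) (by fun_prop)
  obtain ⟨a, ha, hav⟩ := hIVT (show (1 : ℝ) ∈ Icc _ _ from ⟨by
    show ‖(u - a1) - v‖ ≤ 1
    linarith, h1⟩)
  exact ⟨a, ha, hav⟩

/-- The auxiliary points for additivity, in a finite dimensional space. -/
lemma add_data (hdim : 4 ≤ Module.finrank ℝ V) (hη1 : η ≤ 1 / 2)
    (hη : ∀ a b : V, ‖a‖ ≤ 1 → ‖b‖ ≤ 1 → 2 - η ≤ ‖a + b‖ → ‖a - b‖ ≤ 1 / 2)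
    {u1 u2 : V} (h1 : u1 ≠ 0) (h2 : u2 ≠ 0) (h12 : u1 + u2 ≠ 0)
    (n1 : ‖u1‖ ≤ η) (n2 : ‖u2‖ ≤ η) (n12 : ‖u1 + u2‖ ≤ η) :
    ∃ y z z' : V, y ∈ Ew u2 ∧ z ∈ Ew u1 ∧ ‖z + y‖ = 1 ∧ z' ∈ Ew (u1 + u2) ∧
      ‖z' + -(u2 - y)‖ = 1 := by
  obtain ⟨φ, hφ, hφ1, hφ2⟩ := exists_functional (X := V) (by omega) u1 u2
  obtain ⟨c, hc, hψ, q, hq, hq'⟩ := exists_normalised hφ
  set ψ : V →L[ℝ] ℝ := c • φ with hψdef
  have hψapp : ∀ x, ψ x = c * φ x := fun x => rfl
  have hψ1 : ψ u1 = 0 := by rw [hψapp, hφ1, mul_zero]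
  have hψ2 : ψ u2 = 0 := by rw [hψapp, hφ2, mul_zero]
  have hψ12 : ψ (u1 + u2) = 0 := by rw [map_add, hψ1, hψ2, add_zero]
  have hψb : ∀ x, ψ x ≤ ‖x‖ := hψ
  have hψq : ψ q = 1 := hq'
  have hψ0 : ψ ≠ 0 := by
    intro h0
    rw [h0] at hψq
    simp at hψq
  have hu22 : ‖u2‖ < 2 := by linarith
  obtain ⟨y, hyL, hmax⟩ := exists_max hu22 ψ
  have hyE := max_mem_Ew h2 hψ2 hψ0 hyL hmax
  obtain ⟨P, hP, hPv⟩ := lens_test_point hu22.le hψ2 hq hψq
  have hval : 1 - η / 2 ≤ ψ y := by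
    have := hmax P hP
    linarith
  have hy'E := Ew_rho hyE
  obtain ⟨z, hz, hzy⟩ := T_lemmaF hdim hη1 hη h1 n1 hψb hq hψq hψ1 (v := -y)
    (by rw [norm_neg]; exact hyE.1) (by rw [map_neg]; linarith)
  have hzy' : ‖z + y‖ = 1 := by
    rw [sub_neg_eq_add] at hzy
    exact hzy
  obtain ⟨z', hz', hz'y⟩ := T_lemmaF hdim hη1 hη h12 n12 hψb hq hψq hψ12 (v := u2 - y) hy'E.1
    (by rw [map_sub, hψ2]; linarith)
  have hz'y' : ‖z' + -(u2 - y)‖ = 1 := by
    rw [← sub_eq_add_neg]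
    exact hz'y
  exact ⟨y, z, z', hyE, hz, hzy', hz', hz'y'⟩

end FD

/-- Additivity for small nonzero vectors. -/
lemma G_add_auxU (C : CtxU g η) {u1 u2 : X} (h1 : u1 ≠ 0) (h2 : u2 ≠ 0) (h12 : u1 + u2 ≠ 0)
    (n1 : ‖u1‖ ≤ η) (n2 : ‖u2‖ ≤ η) (n12 : ‖u1 + u2‖ ≤ η) :
    G g (u1 + u2) = G g u1 + G g u2 := by
  classical
  have hη1 := C.hη1
  obtain ⟨F, hFd, hF4, hFS⟩ := exists_sub C.hrank {u1, u2}
  have h1F : u1 ∈ F := hFS u1 (by simp)
  have h2F : u2 ∈ F := hFS u2 (by simp)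
  have hηF : ∀ a b : F, ‖a‖ ≤ 1 → ‖b‖ ≤ 1 → 2 - η ≤ ‖a + b‖ → ‖a - b‖ ≤ 1 / 2 :=
    fun a b ha hb h => C.hη a b ha hb h
  obtain ⟨y, z, z', hyE', hz', hzy', hz2', hz'y'⟩ := add_data hF4 hη1 hηF
    (u1 := (⟨u1, h1F⟩ : F)) (u2 := (⟨u2, h2F⟩ : F))
    (fun h0 => h1 (congrArg Subtype.val h0)) (fun h0 => h2 (congrArg Subtype.val h0))
    (fun h0 => h12 (congrArg Subtype.val h0)) n1 n2 n12
  have hyE : (y : X) ∈ Ew u2 := hyE'
  have hz : (z : X) ∈ Ew u1 := hz'
  have hzy : ‖(z : X) + y‖ = 1 := hzy'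
  have hz2 : (z' : X) ∈ Ew (u1 + u2) := hz2'
  have hz'y : ‖(z' : X) + -(u2 - y)‖ = 1 := hz'y'
  have hy'E := Ew_rho hyE
  have hu22 : ‖u2‖ < 2 := by linarith
  have huy : ‖u1 + y‖ < 2 := by
    have := norm_add_le u1 (y : X)
    rw [hyE.1] at this
    linarith
  have e1 := G_shiftU C (u := u1) (y := y) (z := z) (by linarith) hyE.1 huy hz hzy
  have e3 : u1 + u2 + -(u2 - (y : X)) = u1 + y := by abel
  have e2 := G_shiftU C (u := u1 + u2) (y := -(u2 - (y : X))) (z := z') (by linarith)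
    (by rw [norm_neg]; exact hy'E.1) (by rw [e3]; exact huy) hz2 hz'y
  rw [e3, C.hg.odd hy'E.1] at e2
  rw [G_eqU C hu22 hyE]
  have e4 : G g (u1 + u2) = G g (u1 + y) + g (u2 - y) := by
    rw [e2]; abel
  rw [e4, e1]
  abel

lemma G_addU (C : CtxU g η) {u1 u2 : X} (n1 : ‖u1‖ ≤ η) (n2 : ‖u2‖ ≤ η) (n12 : ‖u1 + u2‖ ≤ η) :
    G g (u1 + u2) = G g u1 + G g u2 := by
  have hη1 := C.hη1
  by_cases h1 : u1 = 0
  · rw [h1, zero_add, G_zeroU C, zero_add]
  by_cases h2 : u2 = 0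
  · rw [h2, add_zero, G_zeroU C, add_zero]
  by_cases h12 : u1 + u2 = 0
  · have e : u2 = -u1 := by
      rw [eq_neg_iff_add_eq_zero, add_comm]
      exact h12
    rw [h12, G_zeroU C, e, G_negU C (by linarith), add_neg_cancel]
  exact G_add_auxU C h1 h2 h12 n1 n2 n12

/-- Homogeneity on small vectors. -/
lemma G_smulU (C : CtxU g η) {a : X} (ha : ‖a‖ ≤ η) {t : ℝ} (ht0 : 0 ≤ t) (ht1 : t ≤ 1) :
    G g (t • a) = t • G g a := by
  have hη1 := C.hη1
  by_cases ha0 : a = 0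
  · rw [ha0, smul_zero, G_zeroU C, smul_zero]
  have hn : 0 < ‖a‖ := norm_pos_iff.2 ha0
  have hnt : ‖t • a‖ = t * ‖a‖ := by rw [norm_smul, Real.norm_of_nonneg ht0]
  have hnt' : ‖(1 - t) • a‖ = (1 - t) * ‖a‖ := by
    rw [norm_smul, Real.norm_of_nonneg (by linarith)]
  have h1 : t * ‖a‖ ≤ η := by nlinarith
  have h2 : (1 - t) * ‖a‖ ≤ η := by nlinarith
  have hsum : t • a + (1 - t) • a = a := by module
  have hadd := G_addU C (u1 := t • a) (u2 := (1 - t) • a) (by rw [hnt]; exact h1)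
    (by rw [hnt']; exact h2) (by rw [hsum]; exact ha)
  rw [hsum] at hadd
  set A := G g (t • a) with hA
  set B := G g ((1 - t) • a) with hB
  have hnA : ‖A‖ = t * ‖a‖ := by rw [hA, G_normU C (by rw [hnt]; linarith), hnt]
  have hnB : ‖B‖ = (1 - t) * ‖a‖ := by rw [hB, G_normU C (by rw [hnt']; linarith), hnt']
  have hnG : ‖A + B‖ = ‖a‖ := by rw [← hadd, G_normU C (by linarith)]
  have hray : SameRay ℝ A B := by
    rw [sameRay_iff_norm_add, hnG, hnA, hnB]
    ring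
  have hs := hray.norm_smul_eq
  rw [hnA, hnB] at hs
  have hs2 : t • B = (1 - t) • A := by
    have h3 : ‖a‖ • (t • B) = ‖a‖ • ((1 - t) • A) := by
      rw [smul_smul, smul_smul, mul_comm ‖a‖ t, mul_comm ‖a‖ (1 - t)]
      exact hs
    exact smul_right_injective Y hn.ne' h3
  rw [hadd, smul_add, hs2]
  module

/-- Comparison of two scales. -/
lemma G_scaleU (C : CtxU g η) {x : X} {s s' : ℝ} (hs : 0 < s) (hss' : s ≤ s')
    (hs' : s' * ‖x‖ ≤ η) : s⁻¹ • G g (s • x) = s'⁻¹ • G g (s' • x) := by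
  have hs'0 : 0 < s' := lt_of_lt_of_le hs hss'
  have h1 : ‖s' • x‖ ≤ η := by
    rw [norm_smul, Real.norm_of_nonneg hs'0.le]
    exact hs'
  have e : s • x = (s / s') • (s' • x) := by
    rw [smul_smul, div_mul_cancel₀ _ hs'0.ne']
  rw [e, G_smulU C h1 (by positivity) ((div_le_one hs'0).2 hss'), smul_smul]
  congr 1
  field_simp

lemma TT_eqU (C : CtxU g η) {x : X} {s : ℝ} (hs : 0 < s) (hsx : s * ‖x‖ ≤ η) :
    TT g η x = s⁻¹ • G g (s • x) := by
  have hη0 := C.hη0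
  have hc0 : 0 < η / (‖x‖ + 1) := by positivity
  have hcx : η / (‖x‖ + 1) * ‖x‖ ≤ η := by
    rw [div_mul_eq_mul_div, div_le_iff₀ (by positivity)]
    nlinarith [norm_nonneg x]
  rcases le_total s (η / (‖x‖ + 1)) with h | h
  · rw [TT, G_scaleU C hs h hcx]
  · rw [TT, G_scaleU C hc0 h hsx]

lemma TT_addU (C : CtxU g η) (x x' : X) : TT g η (x + x') = TT g η x + TT g η x' := by
  have hη0 := C.hη0
  set D : ℝ := ‖x‖ + ‖x'‖ + ‖x + x'‖ + 1 with hD
  have hD0 : 0 < D := by positivity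
  set s : ℝ := η / D with hs
  have hs0 : 0 < s := by positivity
  have hsD : s * D = η := by rw [hs]; field_simp
  have h1 : s * ‖x‖ ≤ η := by
    rw [← hsD]
    apply mul_le_mul_of_nonneg_left _ hs0.le
    rw [hD]
    linarith [norm_nonneg x', norm_nonneg (x + x')]
  have h2 : s * ‖x'‖ ≤ η := by
    rw [← hsD]
    apply mul_le_mul_of_nonneg_left _ hs0.le
    rw [hD]
    linarith [norm_nonneg x, norm_nonneg (x + x')]
  have h3 : s * ‖x + x'‖ ≤ η := by
    rw [← hsD]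
    apply mul_le_mul_of_nonneg_left _ hs0.le
    rw [hD]
    linarith [norm_nonneg x, norm_nonneg x']
  rw [TT_eqU C hs0 h1, TT_eqU C hs0 h2, TT_eqU C hs0 h3, smul_add s x x', G_addU C, smul_add]
  · rw [norm_smul, Real.norm_of_nonneg hs0.le]; exact h1
  · rw [norm_smul, Real.norm_of_nonneg hs0.le]; exact h2
  · rw [← smul_add, norm_smul, Real.norm_of_nonneg hs0.le]; exact h3

lemma TT_normU (C : CtxU g η) (x : X) : ‖TT g η x‖ = ‖x‖ := by
  have hη0 := C.hη0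
  have hη1 := C.hη1
  have hc0 : 0 < η / (‖x‖ + 1) := by positivity
  have hcx : η / (‖x‖ + 1) * ‖x‖ ≤ η := by
    rw [div_mul_eq_mul_div, div_le_iff₀ (by positivity)]
    nlinarith [norm_nonneg x]
  rw [TT, norm_smul, G_normU C, norm_inv, norm_smul, Real.norm_of_nonneg hc0.le, ← mul_assoc,
    inv_mul_cancel₀ hc0.ne', one_mul]
  rw [norm_smul, Real.norm_of_nonneg hc0.le]
  linarith

lemma TT_smallU (C : CtxU g η) {u : X} (hu : ‖u‖ ≤ η) : TT g η u = G g u := by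
  rw [TT_eqU C one_pos (by simp [hu])]
  simp

/-- The additive map. -/
noncomputable def TThU (C : CtxU g η) : X →+ Y := AddMonoidHom.mk' (TT g η) (TT_addU C)

lemma TTh_applyU (C : CtxU g η) (x : X) : TThU C x = TT g η x := rfl

lemma TT_sphereU (C : CtxU g η) {x : X} (hx : ‖x‖ = 1) : TT g η x = g x := by
  have hrank : 1 < Module.rank ℝ X := lt_of_lt_of_le (by norm_num) C.hrank
  have hconn : IsConnected (sphere (0 : X) 1) := isConnected_sphere hrank 0 zero_le_one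
  have hcs : ConnectedSpace (sphere (0 : X) 1) := isConnected_iff_connectedSpace.1 hconn
  have hn1 : ∀ z : sphere (0 : X) 1, ‖(z : X)‖ = 1 := fun z => by simpa using z.2
  have hloc : IsLocallyConstant (fun z : sphere (0 : X) 1 => g z - TThU C z) := by
    rw [IsLocallyConstant.iff_eventually_eq]
    intro z
    filter_upwards [Metric.ball_mem_nhds z C.hη0] with y hy
    have hy' : ‖(y : X) - z‖ ≤ η := by
      have : dist y z < η := hy
      rw [Subtype.dist_eq, dist_eq_norm] at this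
      exact this.le
    have hη1 := C.hη1
    have hw2 : ‖(y : X) - z‖ < 2 := by linarith
    have hxE : (y : X) ∈ Ew ((y : X) - z) := by
      refine ⟨hn1 y, ?_⟩
      have e : (y : X) - ((y : X) - z) = z := by abel
      rw [e]; exact hn1 z
    have h1 := G_eqU C hw2 hxE
    have e1 : (y : X) - z - y = -(z : X) := by abel
    rw [e1, C.hg.odd (hn1 z), ← sub_eq_add_neg, ← TT_smallU C hy', ← TTh_applyU C, map_sub] at h1
    have h2 : g (y : X) - TThU C (y : X) = g (z : X) - TThU C (z : X) := by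
      rw [sub_eq_sub_iff_sub_eq_sub, ← h1]
    exact h2
  set x' : sphere (0 : X) 1 := ⟨x, by simpa using hx⟩ with hx'
  have h1 := hloc.apply_eq_of_preconnectedSpace x' (-x')
  have h2 : g (x : X) - TThU C x = g (-x) - TThU C (-x) := h1
  rw [C.hg.odd hx, map_neg] at h2
  have h3 : g x - TThU C x = 0 := by
    have h4 : -g x - -TThU C x = -(g x - TThU C x) := by abel
    rw [h4] at h2
    have h5 : (2 : ℝ) • (g x - TThU C x) = 0 := by
      rw [two_smul]
      nth_rewrite 1 [h2]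
      abel
    rcases smul_eq_zero.1 h5 with h6 | h6
    · norm_num at h6
    · exact h6
  rw [← TTh_applyU C]
  exact (sub_eq_zero.1 h3).symm

/-- The final statement for ambient maps. -/
theorem exists_linearIsometryEquivU (C : CtxU g η) :
    ∃ T : X ≃ₗᵢ[ℝ] Y, ∀ x, ‖x‖ = 1 → T x = g x := by
  have hnorm : ∀ x, ‖TThU C x‖ = ‖x‖ := TT_normU C
  have hiso : Isometry (TThU C) := AddMonoidHomClass.isometry_of_norm _ hnorm
  set L : X →L[ℝ] Y := (TThU C).toRealLinearMap hiso.continuous with hL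
  have hLapp : ∀ x, L x = TT g η x := fun x => rfl
  have hsurj : Function.Surjective L := by
    intro y
    by_cases hy : y = 0
    · exact ⟨0, by rw [hy, map_zero]⟩
    · have hn : 0 < ‖y‖ := norm_pos_iff.2 hy
      have h1 : ‖‖y‖⁻¹ • y‖ = 1 := by
        simpa using norm_smul_inv_norm (𝕜 := ℝ) hy
      obtain ⟨a, ha, hga⟩ := C.hg.surj _ h1
      refine ⟨‖y‖ • a, ?_⟩
      rw [map_smul, hLapp, TT_sphereU C ha, hga, smul_smul, mul_inv_cancel₀ hn.ne', one_smul]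
  let Li : X →ₗᵢ[ℝ] Y := ⟨L.toLinearMap, fun x => hnorm x⟩
  refine ⟨LinearIsometryEquiv.ofSurjective Li hsurj, fun x hx => ?_⟩
  show L x = g x
  rw [hLapp, TT_sphereU C hx]

omit [StrictConvexSpace ℝ X] [StrictConvexSpace ℝ Y] in
/-- Every surjective isometry from the unit sphere of a uniformly convex space of dimension at
least four, possibly infinite, onto the unit sphere of a normed space extends to a linear
isometry. -/
theorem sphere_isometry_uniform [UniformConvexSpace X]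
    (hrank : (4 : Cardinal) ≤ Module.rank ℝ X)
    (f : Metric.sphere (0 : X) 1 → Metric.sphere (0 : Y) 1) (hf : Isometry f)
    (hs : Function.Surjective f) :
    ∃ T : X ≃ₗᵢ[ℝ] Y, ∀ x : Metric.sphere (0 : X) 1, T x = f x := by
  classical
  have hmemX : ∀ a : X, ‖a‖ = 1 → a ∈ Metric.sphere (0 : X) 1 := fun a ha => by simp [ha]
  have hmemY : ∀ y : Y, ‖y‖ = 1 → y ∈ Metric.sphere (0 : Y) 1 := fun y hy => by simp [hy]
  have hnormX : ∀ a : Metric.sphere (0 : X) 1, ‖(a : X)‖ = 1 := fun a => by simpa using a.2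
  have hnormY : ∀ y : Metric.sphere (0 : Y) 1, ‖(y : Y)‖ = 1 := fun y => by simpa using y.2
  set g : X → Y := fun a => if h : ‖a‖ = 1 then (f ⟨a, hmemX a h⟩ : Y) else 0 with hg
  have hgv : ∀ a (h : ‖a‖ = 1), g a = f ⟨a, hmemX a h⟩ := fun a h => by simp [hg, h]
  have hfdist : ∀ a b : Metric.sphere (0 : X) 1, ‖(f a : Y) - f b‖ = ‖(a : X) - b‖ := by
    intro a b
    have := hf.dist_eq a b
    simpa [Subtype.dist_eq, dist_eq_norm] using this
  have hG : SphereIso g := by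
    refine ⟨fun a ha => ?_, fun a b ha hb => ?_, fun y hy => ?_⟩
    · rw [hgv a ha]; exact hnormY _
    · rw [hgv a ha, hgv b hb, hfdist]
    · obtain ⟨a, ha⟩ := hs ⟨y, hmemY y hy⟩
      refine ⟨a, hnormX a, ?_⟩
      rw [hgv a (hnormX a)]
      simp [ha]
  set inv : Metric.sphere (0 : Y) 1 → Metric.sphere (0 : X) 1 := Function.surjInv hs with hinv
  have hfinv : ∀ y, f (inv y) = y := Function.surjInv_eq hs
  have hinvf : ∀ a, inv (f a) = a := fun a => hf.injective (hfinv (f a))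
  set g' : Y → X := fun y => if h : ‖y‖ = 1 then (inv ⟨y, hmemY y h⟩ : X) else 0 with hg'
  have hg'v : ∀ y (h : ‖y‖ = 1), g' y = inv ⟨y, hmemY y h⟩ := fun y h => by simp [hg', h]
  have hG' : SphereIso g' := by
    refine ⟨fun y hy => ?_, fun y y' hy hy' => ?_, fun a ha => ?_⟩
    · rw [hg'v y hy]; exact hnormX _
    · rw [hg'v y hy, hg'v y' hy', ← hfdist, hfinv, hfinv]
    · refine ⟨f ⟨a, hmemX a ha⟩, hnormY _, ?_⟩
      rw [hg'v _ (hnormY _)]
      simp [hinvf]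
  have hSCY : StrictConvexSpace ℝ Y := hG'.strictConvex
  have hUY : UniformConvexSpace Y := by
    refine ⟨fun ε hε => ?_⟩
    obtain ⟨δ, hδ, hX⟩ := exists_forall_sphere_dist_add_le_two_sub X hε
    refine ⟨δ, hδ, fun u hu v hv huv => ?_⟩
    obtain ⟨a, ha, rfl⟩ := hG.surj u hu
    obtain ⟨b, hb, rfl⟩ := hG.surj v hv
    rw [hG.dist_eq a b ha hb] at huv
    have h1 := hX ha hb huv
    have h2 : ‖g a + g b‖ = ‖a + b‖ := by
      have e1 : g a + g b = g a - g (-b) := by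
        rw [hG.odd hb, sub_neg_eq_add]
      have hb' : ‖-b‖ = 1 := by rw [norm_neg]; exact hb
      rw [e1, hG.dist_eq a (-b) ha hb', sub_neg_eq_add]
    rw [h2]
    exact h1
  obtain ⟨η, hη0, hη1, hη⟩ := exists_uc_of_uniform (X := X)
  have C : CtxU g η := ⟨hG, fun x z hx hz hxz => SphereIso.add_eq_unif hG hx hz hxz, hrank, hη0,
    hη1, hη⟩
  obtain ⟨T, hT⟩ := exists_linearIsometryEquivU C
  refine ⟨T, fun x => ?_⟩
  rw [hT x (hnormX x), hgv x (hnormX x)]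

end Vale.Agent.Lib.P084.Dim4
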