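import Vale.Agent.Lib.P084.Main
import Vale.Agent.Lib.P084.Dim4.Final

/-! The extension theorem in dimension at least four, for maps of unit spheres. -/

namespace Vale.Agent.Lib.P084.Dim4

variable {X Y : Type*} [NormedAddCommGroup X] [NormedSpace ℝ X]
  [NormedAddCommGroup Y] [NormedSpace ℝ Y]

/-- Every surjective isometry from the unit sphere of a finite dimensional space of dimension at
least four onto the unit sphere of a strictly convex space extends to a linear isometry. -/
theorem sphere_isometry_dim4 [FiniteDimensional ℝ X] [StrictConvexSpace ℝ Y]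
    (hdim : 4 ≤ Module.finrank ℝ X)
    (f : Metric.sphere (0 : X) 1 → Metric.sphere (0 : Y) 1) (hf : Isometry f)
    (hs : Function.Surjective f) :
    ∃ T : X ≃ₗᵢ[ℝ] Y, ∀ x : Metric.sphere (0 : X) 1, T x = f x := by
  classical
  have hmemX : ∀ a : X, ‖a‖ = 1 → a ∈ Metric.sphere (0 : X) 1 := fun a ha => by simpa using ha
  have hmemY : ∀ y : Y, ‖y‖ = 1 → y ∈ Metric.sphere (0 : Y) 1 := fun y hy => by simpa using hy
  have hnormX : ∀ a : Metric.sphere (0 : X) 1, ‖(a : X)‖ = 1 := fun a => by simpa using a.2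
  have hnormY : ∀ y : Metric.sphere (0 : Y) 1, ‖(y : Y)‖ = 1 := fun y => by simpa using y.2
  set g : X → Y := fun a => if h : ‖a‖ = 1 then (f ⟨a, hmemX a h⟩ : Y) else 0 with hg
  have hgv : ∀ a (h : ‖a‖ = 1), g a = f ⟨a, hmemX a h⟩ := fun a h => by simp [hg, h]
  have hfdist : ∀ a b : Metric.sphere (0 : X) 1, ‖(f a : Y) - f b‖ = ‖(a : X) - b‖ := by
    intro a b
    have := hf.dist_eq a b
    simpa [Subtype.dist_eq, dist_eq_norm] using this
  have hG : SphereIso g := by
    refine ⟨fun a ha => ?_, fun a b ha hb => ?_, fun y hy => ?_⟩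
    · rw [hgv a ha]; exact hnormY _
    · rw [hgv a ha, hgv b hb, hfdist]
    · obtain ⟨a, ha⟩ := hs ⟨y, hmemY y hy⟩
      refine ⟨a, hnormX a, ?_⟩
      rw [hgv a (hnormX a)]
      simp [ha]
  have hSC : StrictConvexSpace ℝ X := hG.strictConvex
  obtain ⟨η, hη0, hη1, hη⟩ := exists_uc' (X := X)
  obtain ⟨T, hT⟩ := exists_linearIsometryEquiv (⟨hG, hdim, hη0, hη1, hη⟩ : Ctx g η)
  refine ⟨T, fun x => ?_⟩
  rw [hT x (hnormX x), hgv x (hnormX x)]

end Vale.Agent.Lib.P084.Dim4
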