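import Mathlib

/-! A two dimensional Borsuk-Ulam statement: a continuous odd map from a sphere of dimension at
least two to the punctured plane does not exist.  The proof takes a continuous logarithm on a
closed hemisphere. -/

namespace Vale.Agent.Lib.P084.Dim4

open Metric Set Filter Topology

/-- A continuous nonvanishing function on the closed unit disc has a continuous logarithm. -/
lemma exists_log_disc (φ : ℂ → ℂ) (hφ : ContinuousOn φ (closedBall 0 1))
    (h0 : ∀ p ∈ closedBall (0 : ℂ) 1, φ p ≠ 0) :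
    ∃ θ : ℂ → ℂ, ContinuousOn θ (closedBall 0 1) ∧
      ∀ p ∈ closedBall (0 : ℂ) 1, φ p = φ 0 * Complex.exp (θ p) := by
  have hcomp : IsCompact (closedBall (0 : ℂ) 1) := isCompact_closedBall 0 1
  have hne : (closedBall (0 : ℂ) 1).Nonempty := ⟨0, by simp⟩
  obtain ⟨p₀, hp₀, hmin⟩ := hcomp.exists_isMinOn hne hφ.norm
  set m : ℝ := ‖φ p₀‖ with hm
  have hmpos : 0 < m := norm_pos_iff.2 (h0 p₀ hp₀)
  have hmle : ∀ p ∈ closedBall (0 : ℂ) 1, m ≤ ‖φ p‖ := fun p hp => hmin hp
  have huc := hcomp.uniformContinuousOn_of_continuous hφ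
  rw [Metric.uniformContinuousOn_iff] at huc
  obtain ⟨δ, hδ, hclose⟩ := huc m hmpos
  obtain ⟨N, hN⟩ := exists_nat_gt (1 / δ)
  have hNpos : (0 : ℝ) < N := lt_trans (by positivity) hN
  have hN0 : (N : ℂ) ≠ 0 := by
    have : (N : ℝ) ≠ 0 := hNpos.ne'
    exact_mod_cast this
  -- the points along the ray
  set r : ℕ → ℂ → ℂ := fun j p => ((j : ℂ) / N) * p with hr
  have hr_mem : ∀ j ≤ N, ∀ p ∈ closedBall (0 : ℂ) 1, r j p ∈ closedBall (0 : ℂ) 1 := by
    intro j hj p hp
    simp only [mem_closedBall, dist_zero_right] at hp ⊢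
    have h1 : ‖((j : ℂ) / N)‖ ≤ 1 := by
      rw [norm_div, Complex.norm_natCast, Complex.norm_natCast]
      exact div_le_one_of_le₀ (by exact_mod_cast hj) hNpos.le
    rw [hr]
    simp only
    rw [norm_mul]
    have := mul_le_mul h1 hp (norm_nonneg _) zero_le_one
    linarith
  have hr_step : ∀ j, ∀ p ∈ closedBall (0 : ℂ) 1, dist (r (j + 1) p) (r j p) < δ := by
    intro j p hp
    simp only [mem_closedBall, dist_zero_right] at hp
    have : r (j + 1) p - r j p = (1 / (N : ℂ)) * p := by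
      simp only [hr]
      push_cast
      field_simp
      ring
    rw [dist_eq_norm, this, norm_mul, norm_div, norm_one, Complex.norm_natCast]
    have h1 : 1 / (N : ℝ) < δ := by
      rw [div_lt_iff₀ hNpos]
      rw [div_lt_iff₀ hδ] at hN
      linarith
    calc 1 / (N : ℝ) * ‖p‖ ≤ 1 / (N : ℝ) * 1 := by gcongr
      _ < δ := by simpa using h1
  have hr_cont : ∀ j, Continuous (r j) := by
    intro j
    simp only [hr]
    fun_prop
  -- ratios lie in the slit plane
  set R : ℕ → ℂ → ℂ := fun j p => φ (r (j + 1) p) / φ (r j p) with hR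
  have hR_slit : ∀ j < N, ∀ p ∈ closedBall (0 : ℂ) 1, R j p ∈ Complex.slitPlane := by
    intro j hj p hp
    have hmem1 := hr_mem (j + 1) hj p hp
    have hmem0 := hr_mem j hj.le p hp
    have hd : dist (φ (r (j + 1) p)) (φ (r j p)) < m := hclose _ hmem1 _ hmem0 (hr_step j p hp)
    have hne0 := h0 _ hmem0
    have hsub : ‖R j p - 1‖ < 1 := by
      have : R j p - 1 = (φ (r (j + 1) p) - φ (r j p)) / φ (r j p) := by
        simp only [hR]
        field_simp
      rw [this, norm_div, div_lt_one (norm_pos_iff.2 hne0)]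
      rw [dist_eq_norm] at hd
      exact lt_of_lt_of_le hd (hmle _ hmem0)
    left
    have := Complex.abs_re_le_norm (R j p - 1)
    have h2 : |(R j p).re - 1| < 1 := by
      have h3 : (R j p - 1).re = (R j p).re - 1 := by simp
      rw [← h3]
      exact lt_of_le_of_lt this hsub
    have := (abs_lt.1 h2).1
    linarith
  have hR_cont : ∀ j < N, ContinuousOn (R j) (closedBall 0 1) := by
    intro j hj
    apply ContinuousOn.div
    · exact hφ.comp (hr_cont _).continuousOn (fun p hp => hr_mem (j + 1) hj p hp)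
    · exact hφ.comp (hr_cont _).continuousOn (fun p hp => hr_mem j hj.le p hp)
    · exact fun p hp => h0 _ (hr_mem j hj.le p hp)
  refine ⟨fun p => ∑ j ∈ Finset.range N, Complex.log (R j p), ?_, ?_⟩
  · apply continuousOn_finsetSum
    intro j hj
    exact (hR_cont j (Finset.mem_range.1 hj)).clog (fun p hp => hR_slit j (Finset.mem_range.1 hj) p hp)
  · intro p hp
    rw [Complex.exp_sum]
    have hexp : ∀ j ∈ Finset.range N, Complex.exp (Complex.log (R j p)) = R j p := by
      intro j hj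
      apply Complex.exp_log
      exact Complex.slitPlane_ne_zero (hR_slit j (Finset.mem_range.1 hj) p hp)
    rw [Finset.prod_congr rfl hexp]
    -- telescoping
    have htel : ∀ k ≤ N, φ (r 0 p) * ∏ j ∈ Finset.range k, R j p = φ (r k p) := by
      intro k
      induction k with
      | zero =>
        intro _
        simp
      | succ k ih =>
        intro hk
        rw [Finset.prod_range_succ, ← mul_assoc, ih (by omega)]
        simp only [hR]
        have := h0 _ (hr_mem k (by omega) p hp)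
        field_simp
    have h1 := htel N le_rfl
    have hr0 : r 0 p = 0 := by simp [hr]
    have hrN : r N p = p := by
      simp only [hr]
      field_simp
    rw [hr0, hrN] at h1
    exact h1.symm

/-- No continuous nonvanishing function on the closed disc is odd on the boundary circle. -/
theorem no_odd_on_disc (φ : ℂ → ℂ) (hφ : ContinuousOn φ (closedBall 0 1))
    (h0 : ∀ p ∈ closedBall (0 : ℂ) 1, φ p ≠ 0)
    (hodd : ∀ p : ℂ, ‖p‖ = 1 → φ (-p) = -φ p) : False := by
  obtain ⟨θ, hθ, hlog⟩ := exists_log_disc φ hφ h0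
  have h00 : φ 0 ≠ 0 := h0 0 (by simp)
  have hmem : ∀ p : ℂ, ‖p‖ = 1 → p ∈ closedBall (0 : ℂ) 1 := fun p hp => by simp [hp]
  have hmem' : ∀ p : ℂ, ‖p‖ = 1 → -p ∈ closedBall (0 : ℂ) 1 := fun p hp => by simp [hp]
  -- the difference on the circle
  set z : ℂ → ℂ := fun p => θ (-p) - θ p with hz
  have hexp : ∀ p : ℂ, ‖p‖ = 1 → Complex.exp (z p) = -1 := by
    intro p hp
    have h1 := hlog p (hmem p hp)
    have h2 := hlog (-p) (hmem' p hp)
    rw [hodd p hp, h1] at h2
    have hne : Complex.exp (θ p) ≠ 0 := Complex.exp_ne_zero _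
    simp only [hz]
    rw [Complex.exp_sub]
    field_simp
    have h3 : φ 0 * Complex.exp (θ (-p)) = φ 0 * (-Complex.exp (θ p)) := by
      rw [← h2]
      ring
    have := mul_left_cancel₀ h00 h3
    rw [this]
  have hcont : ContinuousOn (fun p => (z p).im) (sphere (0 : ℂ) 1) := by
    apply Complex.continuous_im.comp_continuousOn
    apply ContinuousOn.sub
    · apply hθ.comp continuous_neg.continuousOn
      intro p hp
      exact hmem' p (by simpa using hp)
    · apply hθ.mono
      intro p hp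
      exact hmem p (by simpa using hp)
  have hconn : IsPreconnected (sphere (0 : ℂ) 1) := by
    apply IsConnected.isPreconnected
    apply isConnected_sphere _ _ zero_le_one
    rw [Complex.rank_real_complex]
    norm_num
  have hodd' : ∀ p : ℂ, (z (-p)).im = -(z p).im := by
    intro p
    simp only [hz, neg_neg, Complex.sub_im]
    ring
  have h1mem : (1 : ℂ) ∈ sphere (0 : ℂ) 1 := by simp
  have h2mem : (-1 : ℂ) ∈ sphere (0 : ℂ) 1 := by simp
  have hzero : ∃ p ∈ sphere (0 : ℂ) 1, (z p).im = 0 := by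
    rcases le_total (z 1).im 0 with hs | hs
    · have hb : 0 ≤ (z (-1)).im := by rw [hodd']; linarith
      obtain ⟨p, hp, hp0⟩ := hconn.intermediate_value₂ h1mem h2mem hcont
        (continuousOn_const (c := (0 : ℝ))) hs hb
      exact ⟨p, hp, hp0⟩
    · have hb : (z (-1)).im ≤ 0 := by rw [hodd']; linarith
      obtain ⟨p, hp, hp0⟩ := hconn.intermediate_value₂ h2mem h1mem hcont
        (continuousOn_const (c := (0 : ℝ))) hb hs
      exact ⟨p, hp, hp0⟩
  obtain ⟨p, hp, hp0⟩ := hzero
  have hp1 : ‖p‖ = 1 := by simpa using hp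
  have he := hexp p hp1
  -- real part vanishes
  have hnorm : ‖Complex.exp (z p)‖ = 1 := by rw [he]; simp
  rw [Complex.norm_exp] at hnorm
  have hre : (z p).re = 0 := by
    have := Real.exp_eq_one_iff (z p).re
    exact this.1 hnorm
  have hzp : z p = 0 := Complex.ext hre hp0
  rw [hzp, Complex.exp_zero] at he
  have : (1 : ℂ) = -1 := he
  norm_num at this

section Sphere

variable {E' : Type*} [NormedAddCommGroup E'] [InnerProductSpace ℝ E']

lemma norm_sq_three {e1 e2 e3 : E'} (h1 : ‖e1‖ = 1) (h2 : ‖e2‖ = 1) (h3 : ‖e3‖ = 1)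
    (h12 : inner ℝ e1 e2 = 0) (h13 : inner ℝ e1 e3 = 0) (h23 : inner ℝ e2 e3 = 0) (a b c : ℝ) :
    ‖a • e1 + b • e2 + c • e3‖ ^ 2 = a ^ 2 + b ^ 2 + c ^ 2 := by
  have h21 : inner ℝ e2 e1 = 0 := by rw [real_inner_comm]; exact h12
  have h31 : inner ℝ e3 e1 = 0 := by rw [real_inner_comm]; exact h13
  have h32 : inner ℝ e3 e2 = 0 := by rw [real_inner_comm]; exact h23
  have h11 : inner ℝ e1 e1 = 1 := by rw [real_inner_self_eq_norm_sq, h1]; norm_num
  have h22 : inner ℝ e2 e2 = 1 := by rw [real_inner_self_eq_norm_sq, h2]; norm_num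
  have h33 : inner ℝ e3 e3 = 1 := by rw [real_inner_self_eq_norm_sq, h3]; norm_num
  rw [← real_inner_self_eq_norm_sq]
  simp only [inner_add_left, inner_add_right, inner_smul_left, inner_smul_right, h11, h22, h33,
    h12, h13, h23, h21, h31, h32]
  simp
  ring

/-- There is no continuous nowhere zero odd map from a sphere of dimension at least two to the
plane. -/
theorem no_odd_sphere [FiniteDimensional ℝ E'] (hdim : 3 ≤ Module.finrank ℝ E')
    (Ξ : sphere (0 : E') 1 → ℂ) (hc : Continuous Ξ) (h0 : ∀ t, Ξ t ≠ 0)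
    (hodd : ∀ t, Ξ (-t) = -Ξ t) : False := by
  classical
  set b := stdOrthonormalBasis ℝ E' with hb
  set e1 : E' := b ⟨0, by omega⟩ with he1
  set e2 : E' := b ⟨1, by omega⟩ with he2
  set e3 : E' := b ⟨2, by omega⟩ with he3
  have hn1 : ‖e1‖ = 1 := b.orthonormal.1 _
  have hn2 : ‖e2‖ = 1 := b.orthonormal.1 _
  have hn3 : ‖e3‖ = 1 := b.orthonormal.1 _
  have h12 : inner ℝ e1 e2 = 0 := b.orthonormal.2 (by simp [Fin.ext_iff])
  have h13 : inner ℝ e1 e3 = 0 := b.orthonormal.2 (by simp [Fin.ext_iff])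
  have h23 : inner ℝ e2 e3 = 0 := b.orthonormal.2 (by simp [Fin.ext_iff])
  set Θ : ℂ → E' := fun p => p.re • e1 + p.im • e2 + Real.sqrt (1 - ‖p‖ ^ 2) • e3 with hΘ
  have hΘc : Continuous Θ := by
    simp only [hΘ]
    fun_prop
  have hΘn : ∀ p : ℂ, ‖p‖ ≤ 1 → ‖Θ p‖ = 1 := by
    intro p hp
    have h1 := norm_sq_three hn1 hn2 hn3 h12 h13 h23 p.re p.im (Real.sqrt (1 - ‖p‖ ^ 2))
    have hnn : 0 ≤ 1 - ‖p‖ ^ 2 := by nlinarith [norm_nonneg p]
    rw [Real.sq_sqrt hnn] at h1
    have h2 : ‖p‖ ^ 2 = p.re ^ 2 + p.im ^ 2 := by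
      rw [Complex.sq_norm, Complex.normSq_apply]
      ring
    have h3 : ‖Θ p‖ ^ 2 = 1 := by
      simp only [hΘ]
      rw [h1, h2]
      ring
    have h4 := norm_nonneg (Θ p)
    nlinarith
  have hmemS : ∀ p : ℂ, ‖p‖ ≤ 1 → Θ p ∈ sphere (0 : E') 1 := fun p hp => by
    simpa using hΘn p hp
  set φ : ℂ → ℂ := fun p => if h : ‖p‖ ≤ 1 then Ξ ⟨Θ p, hmemS p h⟩ else 1 with hφ
  have hφv : ∀ p (h : ‖p‖ ≤ 1), φ p = Ξ ⟨Θ p, hmemS p h⟩ := fun p h => by simp [hφ, h]
  have hφc : ContinuousOn φ (closedBall 0 1) := by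
    rw [continuousOn_iff_continuous_domRestrict]
    have hmem : ∀ p : closedBall (0 : ℂ) 1, ‖(p : ℂ)‖ ≤ 1 := fun p =>
      mem_closedBall_zero_iff.1 p.2
    have : (closedBall (0 : ℂ) 1).domRestrict φ =
        fun p : closedBall (0 : ℂ) 1 => Ξ ⟨Θ p, hmemS p (hmem p)⟩ := by
      funext p
      exact hφv p (hmem p)
    rw [this]
    apply hc.comp
    apply Continuous.subtype_mk
    exact hΘc.comp continuous_subtype_val
  refine no_odd_on_disc φ hφc ?_ ?_
  · intro p hp
    have hp' : ‖p‖ ≤ 1 := by simpa using hp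
    rw [hφv p hp']
    exact h0 _
  · intro p hp
    have hp' : ‖p‖ ≤ 1 := hp.le
    have hp'' : ‖-p‖ ≤ 1 := by simpa using hp'
    rw [hφv p hp', hφv (-p) hp'', ← hodd]
    congr 1
    apply Subtype.ext
    simp only [hΘ, coe_neg_sphere, norm_neg, hp]
    simp
    abel

end Sphere

end Vale.Agent.Lib.P084.Dim4
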