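import Vale.Agent.Lib.P084.Dim4.Lens

/-! Uniform convexity estimates in finite dimensional strictly convex spaces, and normalised
functionals. -/

set_option linter.unusedSectionVars false

namespace Vale.Agent.Lib.P084.Dim4

open Metric Set Filter Topology

variable {X : Type*} [NormedAddCommGroup X] [NormedSpace ℝ X]

lemma exists_uc [FiniteDimensional ℝ X] [StrictConvexSpace ℝ X] :
    ∃ η > 0, ∀ a b : X, ‖a‖ ≤ 1 → ‖b‖ ≤ 1 → 2 - η ≤ ‖a + b‖ → ‖a - b‖ ≤ 1 / 2 := by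
  have : ProperSpace X := FiniteDimensional.proper_real X
  set S : Set (X × X) := (closedBall 0 1 ×ˢ closedBall 0 1) ∩ {p | 1 / 2 ≤ ‖p.1 - p.2‖} with hSdef
  have hS : IsCompact S :=
    ((isCompact_closedBall _ _).prod (isCompact_closedBall _ _)).inter_right
      (isClosed_le continuous_const (by fun_prop))
  rcases S.eq_empty_or_nonempty with h | h
  · refine ⟨1, one_pos, fun a b ha hb _ => ?_⟩
    by_contra hcon
    have hmem : (a, b) ∈ S :=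
      ⟨⟨by simpa using ha, by simpa using hb⟩, (not_le.1 hcon).le⟩
    rw [h] at hmem
    exact hmem
  · obtain ⟨p, hp, hmax⟩ := hS.exists_isMaxOn h (f := fun p : X × X => ‖p.1 + p.2‖) (by fun_prop)
    have hp1 : ‖p.1‖ ≤ 1 := by simpa using hp.1.1
    have hp2 : ‖p.2‖ ≤ 1 := by simpa using hp.1.2
    have hne : p.1 ≠ p.2 := by
      intro he
      have h3 : (1 / 2 : ℝ) ≤ ‖p.1 - p.2‖ := hp.2
      rw [he, sub_self, norm_zero] at h3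
      norm_num at h3
    have hlt : ‖p.1 + p.2‖ < 2 := by
      have h3 := norm_combo_lt_of_ne (a := 1 / 2) (b := 1 / 2) hp1 hp2 hne (by norm_num)
        (by norm_num) (by norm_num)
      rw [← smul_add, norm_smul] at h3
      norm_num at h3
      linarith
    refine ⟨(2 - ‖p.1 + p.2‖) / 2, by linarith, fun a b ha hb h2 => ?_⟩
    by_contra hcon
    have hmem : (a, b) ∈ S :=
      ⟨⟨by simpa using ha, by simpa using hb⟩, (not_le.1 hcon).le⟩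
    have h4 : ‖a + b‖ ≤ ‖p.1 + p.2‖ := hmax hmem
    linarith

/-- Far points. -/
lemma far_of_uc {η : ℝ} (hη : ∀ a b : X, ‖a‖ ≤ 1 → ‖b‖ ≤ 1 → 2 - η ≤ ‖a + b‖ → ‖a - b‖ ≤ 1 / 2)
    {ψ : X →L[ℝ] ℝ} (hψ : ∀ x, ψ x ≤ ‖x‖) {y x : X} (hy : ‖y‖ = 1) (hψy : ψ y ≤ 0) (hx : ‖x‖ ≤ 1)
    (hψx : 1 - η / 2 ≤ ψ x) : 1 ≤ ‖x - y‖ := by
  by_contra hcon
  have hlt : ‖x - y‖ < 1 := not_le.1 hcon
  have h1 : 2 - η ≤ ‖x + (x - y)‖ := by
    have h2 := hψ (x + (x - y))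
    rw [map_add, map_sub] at h2
    linarith
  have h2 := hη x (x - y) hx hlt.le h1
  have e : x - (x - y) = y := by abel
  rw [e, hy] at h2
  norm_num at h2

/-- Near points. -/
lemma near_of_uc {η : ℝ} (hη : ∀ a b : X, ‖a‖ ≤ 1 → ‖b‖ ≤ 1 → 2 - η ≤ ‖a + b‖ → ‖a - b‖ ≤ 1 / 2)
    {ψ : X →L[ℝ] ℝ} (hψ : ∀ x, ψ x ≤ ‖x‖) {a b : X} (ha : ‖a‖ ≤ 1) (hb : ‖b‖ ≤ 1)
    (hψa : 1 - η / 2 ≤ ψ a) (hψb : 1 - η / 2 ≤ ψ b) : ‖a - b‖ ≤ 1 / 2 := by
  apply hη a b ha hb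
  have h2 := hψ (a + b)
  rw [map_add] at h2
  linarith

/-- Normalisation of a nonzero functional. -/
lemma exists_normalised [FiniteDimensional ℝ X] {φ : X →L[ℝ] ℝ} (hφ : φ ≠ 0) :
    ∃ c : ℝ, 0 < c ∧ (∀ x, c * φ x ≤ ‖x‖) ∧ ∃ q : X, ‖q‖ ≤ 1 ∧ c * φ q = 1 := by
  have : ProperSpace X := FiniteDimensional.proper_real X
  obtain ⟨q, hq, hmax⟩ := (isCompact_closedBall (0 : X) 1).exists_isMaxOn
    ⟨0, by simp⟩ φ.continuous.continuousOn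
  have hq1 : ‖q‖ ≤ 1 := by simpa using hq
  have hball : ∀ x, ‖x‖ ≤ 1 → φ x ≤ φ q := fun x hx => hmax (by simpa using hx)
  obtain ⟨v, hv⟩ : ∃ v, φ v ≠ 0 := by
    by_contra hcon
    push Not at hcon
    exact hφ (ContinuousLinearMap.ext hcon)
  have hv0 : v ≠ 0 := by
    rintro rfl
    simp at hv
  have hn : 0 < ‖v‖ := norm_pos_iff.2 hv0
  have hN : 0 < φ q := by
    have h1 : ‖‖v‖⁻¹ • v‖ ≤ 1 := by
      rw [norm_smul, norm_inv, norm_norm, inv_mul_cancel₀ hn.ne']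
    have h2 : ‖-(‖v‖⁻¹ • v)‖ ≤ 1 := by rwa [norm_neg]
    have h3 := hball _ h1
    have h4 := hball _ h2
    rw [map_smul, smul_eq_mul] at h3
    rw [map_neg, map_smul, smul_eq_mul] at h4
    have h5 : 0 < ‖v‖⁻¹ := inv_pos.2 hn
    rcases lt_or_gt_of_ne hv with h6 | h6
    · have : ‖v‖⁻¹ * φ v < 0 := mul_neg_of_pos_of_neg h5 h6
      linarith
    · have : 0 < ‖v‖⁻¹ * φ v := mul_pos h5 h6
      linarith
  refine ⟨(φ q)⁻¹, inv_pos.2 hN, fun x => ?_, q, hq1, inv_mul_cancel₀ hN.ne'⟩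
  by_cases hx : x = 0
  · simp [hx]
  · have hnx : 0 < ‖x‖ := norm_pos_iff.2 hx
    have h1 : ‖‖x‖⁻¹ • x‖ ≤ 1 := by
      rw [norm_smul, norm_inv, norm_norm, inv_mul_cancel₀ hnx.ne']
    have h3 := hball _ h1
    rw [map_smul, smul_eq_mul, inv_mul_le_iff₀ hnx] at h3
    rw [inv_mul_le_iff₀ hN, mul_comm]
    exact h3

/-- A test point in the lens on which a normalised functional killing `w` is large. -/
lemma lens_test_point {w : X} (hw2 : ‖w‖ ≤ 2) {ψ : X →L[ℝ] ℝ} (hψw : ψ w = 0) {q : X}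
    (hq : ‖q‖ ≤ 1) (hψq : ψ q = 1) : ∃ P ∈ Lens w, ψ P = 1 - ‖w‖ / 2 := by
  set t : ℝ := 1 - ‖w‖ / 2 with ht
  have ht0 : 0 ≤ t := by rw [ht]; linarith
  refine ⟨t • q + (1 / 2 : ℝ) • w, ⟨?_, ?_⟩, ?_⟩
  · calc ‖t • q + (1 / 2 : ℝ) • w‖ ≤ ‖t • q‖ + ‖(1 / 2 : ℝ) • w‖ := norm_add_le _ _
      _ = t * ‖q‖ + (1 / 2) * ‖w‖ := by
          rw [norm_smul, norm_smul, Real.norm_of_nonneg ht0]; norm_num
      _ ≤ t * 1 + (1 / 2) * ‖w‖ := by gcongr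
      _ = 1 := by rw [ht]; ring
  · have e : t • q + (1 / 2 : ℝ) • w - w = t • q - (1 / 2 : ℝ) • w := by
      have h3 : (1 / 2 : ℝ) • w + (1 / 2 : ℝ) • w = w := by
        rw [← add_smul]; norm_num
      calc t • q + (1 / 2 : ℝ) • w - w
          = t • q + (1 / 2 : ℝ) • w - ((1 / 2 : ℝ) • w + (1 / 2 : ℝ) • w) := by rw [h3]
        _ = t • q - (1 / 2 : ℝ) • w := by abel
    rw [e]
    calc ‖t • q - (1 / 2 : ℝ) • w‖ ≤ ‖t • q‖ + ‖(1 / 2 : ℝ) • w‖ := norm_sub_le _ _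
      _ = t * ‖q‖ + (1 / 2) * ‖w‖ := by
          rw [norm_smul, norm_smul, Real.norm_of_nonneg ht0]; norm_num
      _ ≤ t * 1 + (1 / 2) * ‖w‖ := by gcongr
      _ = 1 := by rw [ht]; ring
  · rw [map_add, map_smul, map_smul, hψw, hψq]
    simp

end Vale.Agent.Lib.P084.Dim4
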